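import Mathlib

/-! Trigonometric products. -/

namespace Vale.Agent.P105

open Finset Real

noncomputable def cs (x : ℝ) : ℝ := Real.cos (2 * π * x)
noncomputable def sn (x : ℝ) : ℝ := Real.sin (2 * π * x)

theorem two_pi_le : 2 * π ≤ 7 := by linarith [Real.pi_lt_d2]

theorem cs_zero : cs 0 = 1 := by simp [cs]

theorem abs_cs_le (x : ℝ) : |cs x| ≤ 1 := Real.abs_cos_le_one _
theorem abs_sn_le_one (x : ℝ) : |sn x| ≤ 1 := Real.abs_sin_le_one _

theorem abs_two_pi_mul (x : ℝ) : |2 * π * x| ≤ 7 * |x| := by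
  rw [abs_mul, abs_of_pos (by positivity : 0 < 2 * π)]
  exact mul_le_mul_of_nonneg_right two_pi_le (abs_nonneg _)

theorem abs_sn_le (x : ℝ) : |sn x| ≤ 7 * |x| :=
  (Real.abs_sin_le_abs).trans (abs_two_pi_mul x)

theorem cs_add (x y : ℝ) : cs (x + y) = cs x * cs y - sn x * sn y := by
  unfold cs sn; rw [mul_add, Real.cos_add]

theorem cs_sub (x y : ℝ) : cs (x - y) = cs x * cs y + sn x * sn y := by
  unfold cs sn; rw [mul_sub, Real.cos_sub]

theorem sn_add (x y : ℝ) : sn (x + y) = sn x * cs y + cs x * sn y := by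
  unfold cs sn; rw [mul_add, Real.sin_add]

theorem cs_neg (x : ℝ) : cs (-x) = cs x := by unfold cs; rw [mul_neg, Real.cos_neg]
theorem sn_neg (x : ℝ) : sn (-x) = -sn x := by unfold sn; rw [mul_neg, Real.sin_neg]

theorem cs_add_int (x : ℝ) (k : ℤ) : cs (x + k) = cs x := by
  unfold cs
  rw [show 2 * π * (x + k) = 2 * π * x + k * (2 * π) by ring, Real.cos_add_int_mul_two_pi]

theorem sn_add_int (x : ℝ) (k : ℤ) : sn (x + k) = sn x := by
  unfold sn
  rw [show 2 * π * (x + k) = 2 * π * x + k * (2 * π) by ring, Real.sin_add_int_mul_two_pi]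

theorem abs_cs_sub_le (x d : ℝ) : |cs (x + d) - cs x| ≤ 7 * |d| := by
  unfold cs
  refine (Real.abs_cos_sub_cos_le _ _).trans ?_
  rw [show 2 * π * (x + d) - 2 * π * x = 2 * π * d by ring]
  exact abs_two_pi_mul d

theorem abs_cs_add_ge (x d : ℝ) : |cs x| - 7 * |d| ≤ |cs (x + d)| := by
  have h := abs_cs_sub_le x d
  have h2 := abs_sub_abs_le_abs_sub (cs x) (cs (x + d))
  rw [abs_sub_comm] at h2
  linarith

theorem abs_sn_add_le (x d : ℝ) : |sn (x + d)| ≤ |sn x| + 7 * |d| := by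
  have h : |sn (x + d) - sn x| ≤ 7 * |d| := by
    unfold sn
    refine (Real.abs_sin_sub_sin_le _ _).trans ?_
    rw [show 2 * π * (x + d) - 2 * π * x = 2 * π * d by ring]
    exact abs_two_pi_mul d
  have h2 := abs_sub_abs_le_abs_sub (sn (x + d)) (sn x)
  linarith

theorem cs_ge (d : ℝ) : 1 - 20 * d ^ 2 ≤ cs d := by
  unfold cs
  have h := Real.one_sub_sq_div_two_le_cos (x := 2 * π * d)
  have h2 : π ^ 2 ≤ 10 := by nlinarith [Real.pi_lt_d2, Real.pi_pos]
  have h3 : (2 * π * d) ^ 2 / 2 = 2 * π ^ 2 * d ^ 2 := by ring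
  nlinarith [sq_nonneg d]

theorem abs_cs_add_ge' (x d : ℝ) :
    |cs x| * (1 - 20 * d ^ 2) - 7 * |d| * |sn x| ≤ |cs (x + d)| := by
  rw [cs_add]
  have h1 := abs_sub_abs_le_abs_sub (cs x * cs d) (sn x * sn d)
  rw [abs_mul, abs_mul] at h1
  have h2 : 1 - 20 * d ^ 2 ≤ |cs d| := (cs_ge d).trans (le_abs_self _)
  have h3 := abs_sn_le d
  have h4 := mul_le_mul_of_nonneg_left h2 (abs_nonneg (cs x))
  have h5 := mul_le_mul_of_nonneg_left h3 (abs_nonneg (sn x))
  linarith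

theorem exp_le_one_sub {e : ℝ} (h0 : 0 ≤ e) (h1 : e ≤ 1 / 2) : Real.exp (-(2 * e)) ≤ 1 - e := by
  rw [Real.exp_neg, inv_le_comm₀ (Real.exp_pos _) (by linarith)]
  have h := Real.add_one_le_exp (2 * e)
  refine le_trans ?_ h
  rw [inv_le_iff_one_le_mul₀ (by linarith)]
  nlinarith

theorem prod_lower (s : Finset ℕ) (a b e : ℕ → ℝ) (ha : ∀ j ∈ s, 0 ≤ a j)
    (he0 : ∀ j ∈ s, 0 ≤ e j) (he1 : ∀ j ∈ s, e j ≤ 1 / 2)
    (hab : ∀ j ∈ s, a j * (1 - e j) ≤ b j) :
    (∏ j ∈ s, a j) * Real.exp (-(2 * ∑ j ∈ s, e j)) ≤ ∏ j ∈ s, b j := by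
  rw [Finset.mul_sum, ← Finset.sum_neg_distrib, Real.exp_sum, ← Finset.prod_mul_distrib]
  refine Finset.prod_le_prod (fun j hj => mul_nonneg (ha j hj) (Real.exp_pos _).le) ?_
  intro j hj
  exact (mul_le_mul_of_nonneg_left (exp_le_one_sub (he0 j hj) (he1 j hj)) (ha j hj)).trans
    (hab j hj)

theorem abs_prod_sub_le (s : Finset ℕ) (a b : ℕ → ℝ) (ha : ∀ j, |a j| ≤ 1) (hb : ∀ j, |b j| ≤ 1) :
    |∏ j ∈ s, a j - ∏ j ∈ s, b j| ≤ ∑ j ∈ s, |a j - b j| := by
  induction s using Finset.induction_on with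
  | empty => simp
  | insert i s hi ih =>
    rw [Finset.prod_insert hi, Finset.prod_insert hi, Finset.sum_insert hi]
    have h1 : |∏ j ∈ s, a j| ≤ 1 := by
      rw [Finset.abs_prod]
      exact Finset.prod_le_one (fun j _ => abs_nonneg _) (fun j _ => ha j)
    have h2 : a i * ∏ j ∈ s, a j - b i * ∏ j ∈ s, b j =
        (a i - b i) * ∏ j ∈ s, a j + b i * (∏ j ∈ s, a j - ∏ j ∈ s, b j) := by ring
    rw [h2]
    refine (abs_add_le _ _).trans ?_
    rw [abs_mul, abs_mul]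
    have h3 := mul_le_mul_of_nonneg_left h1 (abs_nonneg (a i - b i))
    have h4 := mul_le_mul_of_nonneg_right (hb i)
      (abs_nonneg (∏ j ∈ s, a j - ∏ j ∈ s, b j))
    linarith

theorem geom_le {l : ℝ} (h0 : 0 < l) (h1 : l ≤ 2 / 3) (M : ℕ) : ∑ j ∈ range M, l ^ j ≤ 3 := by
  have h : ∑ j ∈ range M, l ^ j ≤ 3 * (1 - l ^ M) := by
    induction M with
    | zero => simp
    | succ M ih =>
      rw [Finset.sum_range_succ, pow_succ]
      have := pow_pos h0 M
      nlinarith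
  have := pow_pos h0 M
  linarith

/-- Truncated cosine product. -/
noncomputable def PP (l x : ℝ) (M : ℕ) : ℝ := ∏ j ∈ range M, cs (x * l ^ j)

/-- Uniform lower bound for the truncated products. -/
def Low (l x v : ℝ) : Prop := ∀ M, v ≤ |PP l x M|

theorem abs_PP (l x : ℝ) (M : ℕ) : |PP l x M| = ∏ j ∈ range M, |cs (x * l ^ j)| :=
  Finset.abs_prod _ _

theorem abs_PP_le (l x : ℝ) (M : ℕ) : |PP l x M| ≤ 1 := by
  rw [abs_PP]
  exact Finset.prod_le_one (fun j _ => abs_nonneg _) (fun j _ => abs_cs_le _)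

theorem PP_add (l x : ℝ) (n M : ℕ) : PP l x (n + M) = PP l x n * PP l (x * l ^ n) M := by
  unfold PP
  rw [Finset.prod_range_add]
  congr 1
  refine Finset.prod_congr rfl fun j _ => ?_
  rw [pow_add, mul_assoc]

theorem abs_PP_anti (l x : ℝ) (n M : ℕ) : |PP l x (n + M)| ≤ |PP l x M| := by
  rw [add_comm, PP_add, abs_mul]
  exact mul_le_of_le_one_right (abs_nonneg _) (abs_PP_le _ _ _)

theorem Low.le_one {l x v : ℝ} (h : Low l x v) : v ≤ 1 := (h 0).trans (abs_PP_le _ _ _)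

theorem Low.mono {l x v w : ℝ} (h : Low l x v) (hw : w ≤ v) : Low l x w :=
  fun M => hw.trans (h M)

theorem Low.of_split {l x u v : ℝ} {n : ℕ} (hu : u ≤ |PP l x n|) (hu0 : 0 ≤ u)
    (hv : Low l (x * l ^ n) v) (hv0 : 0 ≤ v) : Low l x (u * v) := by
  intro M
  refine le_trans ?_ (abs_PP_anti l x n M)
  rw [PP_add, abs_mul]
  exact mul_le_mul hu (hv M) hv0 (abs_nonneg _)

theorem pert {l x d k v : ℝ} (h0 : 0 < l) (h1 : l ≤ 2 / 3) (hk : 0 < k)
    (hc : ∀ j : ℕ, k ≤ |cs (x * l ^ j)|) (hd : 14 * |d| ≤ k) (hv : Low l x v) :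
    Low l (x + d) (v * Real.exp (-3)) := by
  intro M
  have hl : ∀ j : ℕ, l ^ j ≤ 1 := fun j => pow_le_one₀ h0.le (by linarith)
  have key := prod_lower (range M) (fun j => |cs (x * l ^ j)|) (fun j => |cs ((x + d) * l ^ j)|)
    (fun j => l ^ j / 2) (fun j _ => abs_nonneg _) (fun j _ => by positivity)
    (fun j _ => by linarith [hl j]) (fun j _ => by
      have h2 := abs_cs_add_ge (x * l ^ j) (d * l ^ j)
      rw [← add_mul, abs_mul, abs_of_pos (pow_pos h0 j)] at h2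
      have h3 := pow_pos h0 j
      have h4 := hc j
      nlinarith)
  rw [← abs_PP, ← abs_PP] at key
  refine le_trans ?_ key
  refine mul_le_mul (hv M) ?_ (Real.exp_pos _).le (abs_nonneg _)
  apply Real.exp_le_exp.2
  rw [← Finset.sum_div]
  linarith [geom_le h0 h1 M]

theorem low_exists {l x : ℝ} (h0 : 0 < l) (h1 : l ≤ 2 / 3)
    (hc : ∀ j : ℕ, cs (x * l ^ j) ≠ 0) : ∃ v, 0 < v ∧ Low l x v := by
  obtain ⟨n, hn⟩ := exists_pow_lt_of_lt_one (x := 1 / (14 * (|x| + 1))) (y := l) (by positivity)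
    (by linarith)
  have h2 : Low l (0 + x * l ^ n) (1 * Real.exp (-3)) := by
    refine pert (k := 1) h0 h1 one_pos (fun j => by simp [cs_zero]) ?_ ?_
    · rw [abs_mul, abs_of_pos (pow_pos h0 n)]
      rw [lt_div_iff₀ (by positivity)] at hn
      nlinarith [pow_pos h0 n, abs_nonneg x]
    · intro M; simp [PP, cs_zero]
  rw [zero_add] at h2
  have h3 : 0 < |PP l x n| := abs_pos.2 (Finset.prod_ne_zero_iff.2 fun j _ => hc j)
  exact ⟨_, mul_pos h3 (by positivity), Low.of_split le_rfl h3.le h2 (by positivity)⟩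

theorem sum_sn {l t : ℝ} {L : ℕ} (h0 : 0 < l) (h1 : l ≤ 2 / 3) (ht0 : 0 ≤ t)
    (ht : t * l ^ L ≤ 1) (M : ℕ) : ∑ j ∈ range M, |sn (t * l ^ j)| ≤ L + 21 := by
  have h2 : ∑ j ∈ range M, |sn (t * l ^ j)| ≤ ∑ j ∈ range (L + M), |sn (t * l ^ j)| :=
    Finset.sum_le_sum_of_subset_of_nonneg (Finset.range_mono (by omega))
      (fun j _ _ => abs_nonneg _)
  refine h2.trans ?_
  rw [Finset.sum_range_add]
  have h3 : ∑ j ∈ range L, |sn (t * l ^ j)| ≤ L := by
    simpa using Finset.sum_le_card_nsmul (range L) (fun j => |sn (t * l ^ j)|) 1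
      (fun j _ => abs_sn_le_one _)
  have h4 : ∑ j ∈ range M, |sn (t * l ^ (L + j))| ≤ ∑ j ∈ range M, 7 * l ^ j := by
    refine Finset.sum_le_sum fun j _ => (abs_sn_le _).trans ?_
    rw [abs_of_nonneg (by positivity), pow_add, ← mul_assoc]
    have := pow_pos h0 j
    nlinarith
  rw [← Finset.mul_sum] at h4
  linarith [geom_le h0 h1 M]

end Vale.Agent.P105
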