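import Vale.Agent.P105.Defs
import Vale.Agent.P105.Basic

/-! The Fourier transform of the Bernoulli convolution. -/

namespace Vale.Agent.P105

open Finset Real MeasureTheory ProbabilityTheory Filter Topology

theorem coin_prob : IsProbabilityMeasure coin := by
  constructor
  simp [coin, ENNReal.inv_two_add_inv_two]

theorem integral_coin (f : Bool → ℂ) : ∫ b, f b ∂coin = (f true + f false) / 2 := by
  unfold coin
  rw [integral_add_measure, integral_smul_measure, integral_smul_measure, integral_dirac,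
    integral_dirac]
  · simp; ring
  · exact (integrable_dirac (by simp)).smul_measure (by simp)
  · exact (integrable_dirac (by simp)).smul_measure (by simp)

theorem abs_sgn (b : Bool) : |sgn b| = 1 := by cases b <;> simp [sgn]

theorem summable_Y {l : ℝ} (h0 : 0 < l) (h1 : l ≤ 2 / 3) (ω : ℕ → Bool) :
    Summable fun n => sgn (ω n) * l ^ n := by
  refine Summable.of_norm_bounded (summable_geometric_of_lt_one h0.le (by linarith)) fun n => ?_
  rw [Real.norm_eq_abs, abs_mul, abs_sgn, one_mul, abs_of_pos (pow_pos h0 n)]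

theorem tendsto_Y {l : ℝ} (h0 : 0 < l) (h1 : l ≤ 2 / 3) (ω : ℕ → Bool) :
    Tendsto (fun M => ∑ n ∈ range M, sgn (ω n) * l ^ n) atTop (𝓝 (∑' n, sgn (ω n) * l ^ n)) :=
  (summable_Y h0 h1 ω).hasSum.tendsto_sum_nat

theorem measurable_part (l : ℝ) (M : ℕ) :
    Measurable fun ω : ℕ → Bool => ∑ n ∈ range M, sgn (ω n) * l ^ n :=
  Finset.measurable_sum _ fun n _ =>
    ((measurable_of_countable sgn).comp (measurable_pi_apply n)).mul_const _

theorem measurable_Y {l : ℝ} (h0 : 0 < l) (h1 : l ≤ 2 / 3) :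
    Measurable fun ω : ℕ → Bool => ∑' n, sgn (ω n) * l ^ n :=
  measurable_of_tendsto_metrizable (measurable_part l) (tendsto_pi_nhds.2 (tendsto_Y h0 h1))

theorem abs_Y_le {l : ℝ} (h0 : 0 < l) (h1 : l ≤ 2 / 3) (ω : ℕ → Bool) :
    |∑' n, sgn (ω n) * l ^ n| ≤ 3 := by
  refine le_of_tendsto' (tendsto_Y h0 h1 ω).abs fun M => ?_
  refine (Finset.abs_sum_le_sum_abs _ _).trans (le_trans (le_of_eq ?_) (geom_le h0 h1 M))
  refine Finset.sum_congr rfl fun n _ => ?_
  rw [abs_mul, abs_sgn, one_mul, abs_of_pos (pow_pos h0 n)]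

theorem bern_prob {l : ℝ} (h0 : 0 < l) (h1 : l ≤ 2 / 3) : IsProbabilityMeasure (bernoulli l) := by
  haveI := coin_prob
  exact Measure.isProbabilityMeasure_map (measurable_Y h0 h1).aemeasurable

theorem bern_supp {l : ℝ} (h0 : 0 < l) (h1 : l ≤ 2 / 3) :
    bernoulli l (Set.Icc (-3) 3)ᶜ = 0 := by
  unfold bernoulli
  rw [Measure.map_apply (measurable_Y h0 h1) measurableSet_Icc.compl]
  convert measure_empty (μ := Measure.infinitePi (fun _ : ℕ => coin))
  ext ω
  simpa [abs_le] using abs_Y_le h0 h1 ω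

theorem continuous_cs : Continuous cs := by unfold cs; fun_prop
theorem continuous_sn : Continuous sn := by unfold sn; fun_prop

theorem integral_part (l x : ℝ) (M : ℕ) :
    ∫ ω, cs (x * ∑ n ∈ range M, sgn (ω n) * l ^ n) ∂(Measure.infinitePi (fun _ : ℕ => coin)) =
      PP l x M := by
  haveI := coin_prob
  have hind : iIndepFun (fun (i : Fin M) (ω : ℕ → Bool) => ω i)
      (Measure.infinitePi (fun _ : ℕ => coin)) :=
    (iIndepFun_infinitePi (P := fun _ : ℕ => coin) (X := fun _ b => b)
      (fun _ => measurable_id)).precomp Fin.val_injective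
  have key := hind.integral_fun_prod_comp (𝕜 := ℂ)
    (f := fun (i : Fin M) b => Complex.exp (((2 * π * (x * (sgn b * l ^ (i : ℕ))) : ℝ) : ℂ) * Complex.I))
    (fun i => (measurable_pi_apply _).aemeasurable)
    (fun i => (measurable_of_countable _).aestronglyMeasurable)
  have h2 : ∀ i : Fin M, ∫ ω, Complex.exp (((2 * π * (x * (sgn (ω i) * l ^ (i : ℕ))) : ℝ) : ℂ) *
      Complex.I) ∂(Measure.infinitePi (fun _ : ℕ => coin)) = (cs (x * l ^ (i : ℕ)) : ℂ) := by
    intro i
    have h3 := integral_map (μ := Measure.infinitePi (fun _ : ℕ => coin))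
      (φ := fun ω : ℕ → Bool => ω i) (measurable_pi_apply _).aemeasurable
      (f := fun b => Complex.exp (((2 * π * (x * (sgn b * l ^ (i : ℕ))) : ℝ) : ℂ) * Complex.I))
      (measurable_of_countable _).aestronglyMeasurable
    rw [← h3, Measure.infinitePi_map_eval, integral_coin]
    simp only [sgn, cs, Complex.ofReal_cos, Complex.cos]
    push_cast
    simp
  simp only [h2] at key
  have h4 : ∀ ω : ℕ → Bool, cs (x * ∑ n ∈ range M, sgn (ω n) * l ^ n) = RCLike.re
      (∏ i : Fin M, Complex.exp (((2 * π * (x * (sgn (ω i) * l ^ (i : ℕ))) : ℝ) : ℂ) *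
        Complex.I)) := by
    intro ω
    rw [← Complex.exp_sum, ← Finset.sum_mul, ← Complex.ofReal_sum, RCLike.re_to_complex,
      Complex.exp_ofReal_mul_I_re, ← Finset.mul_sum, ← Finset.mul_sum,
      Fin.sum_univ_eq_sum_range (fun n => sgn (ω n) * l ^ n)]
    rfl
  simp only [h4]
  rw [integral_re, key, ← Complex.ofReal_prod, RCLike.re_to_complex, Complex.ofReal_re,
    Fin.prod_univ_eq_prod_range (fun n => cs (x * l ^ n))]
  · rfl
  · refine Integrable.of_bound (C := 1) ?_ (ae_of_all _ fun ω => ?_)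
    · refine (Finset.measurable_prod _ fun i _ => ?_).aestronglyMeasurable
      exact (measurable_of_countable (fun b : Bool => Complex.exp
        (((2 * π * (x * (sgn b * l ^ (i : ℕ))) : ℝ) : ℂ) * Complex.I))).comp
        (measurable_pi_apply _)
    · rw [norm_prod]
      simp only [Complex.norm_exp_ofReal_mul_I, Finset.prod_const_one, le_refl]

theorem tendsto_PP {l : ℝ} (h0 : 0 < l) (h1 : l ≤ 2 / 3) (x : ℝ) :
    Tendsto (PP l x) atTop (𝓝 (∫ y, cs (x * y) ∂(bernoulli l))) := by
  haveI := coin_prob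
  unfold bernoulli
  rw [integral_map (measurable_Y h0 h1).aemeasurable (f := fun y => cs (x * y))
    (continuous_cs.comp (continuous_const.mul continuous_id)).aestronglyMeasurable]
  have : PP l x = fun M => ∫ ω, cs (x * ∑ n ∈ range M, sgn (ω n) * l ^ n)
      ∂(Measure.infinitePi (fun _ : ℕ => coin)) := funext fun M => (integral_part l x M).symm
  rw [this]
  refine tendsto_integral_of_dominated_convergence (fun _ => 1) (fun M => ?_)
    (integrable_const _) (fun M => ae_of_all _ fun ω => abs_cs_le _) (ae_of_all _ fun ω => ?_)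
  · exact (continuous_cs.measurable.comp ((measurable_part l M).const_mul x)).aestronglyMeasurable
  · exact (continuous_cs.tendsto _).comp ((tendsto_Y h0 h1 ω).const_mul x)

end Vale.Agent.P105
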