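import Vale.Agent.P105.Char

/-! A second moment criterion for singularity. -/

namespace Vale.Agent.P105

open Finset Real MeasureTheory Filter Topology

theorem integrable_cs (μ : Measure ℝ) [IsFiniteMeasure μ] (x : ℝ) :
    Integrable (fun y => cs (x * y)) μ :=
  Integrable.of_bound (C := 1)
    (continuous_cs.comp (continuous_const.mul continuous_id)).aestronglyMeasurable
    (ae_of_all _ fun _ => abs_cs_le _)

theorem sq_sum (K : ℕ) (c ξ : ℕ → ℝ) (y : ℝ) :
    (∑ i ∈ range K, c i * cs (ξ i * y)) ^ 2 + (∑ i ∈ range K, c i * sn (ξ i * y)) ^ 2 =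
      ∑ i ∈ range K, ∑ k ∈ range K, c i * c k * cs ((ξ i - ξ k) * y) := by
  rw [sq, sq, Finset.sum_mul_sum, Finset.sum_mul_sum, ← Finset.sum_add_distrib]
  refine Finset.sum_congr rfl fun i _ => ?_
  rw [← Finset.sum_add_distrib]
  refine Finset.sum_congr rfl fun k _ => ?_
  rw [sub_mul, cs_sub]; ring

theorem integrable_H (μ : Measure ℝ) [IsFiniteMeasure μ] (K : ℕ) (c ξ : ℕ → ℝ) :
    Integrable (fun y => ∑ i ∈ range K, ∑ k ∈ range K, c i * c k * cs ((ξ i - ξ k) * y)) μ :=
  integrable_finset_sum _ fun _ _ => integrable_finset_sum _ fun _ _ =>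
    (integrable_cs μ _).const_mul _

theorem integral_H (μ : Measure ℝ) [IsFiniteMeasure μ] (K : ℕ) (c ξ : ℕ → ℝ) :
    ∫ y, ∑ i ∈ range K, ∑ k ∈ range K, c i * c k * cs ((ξ i - ξ k) * y) ∂μ =
      ∑ i ∈ range K, ∑ k ∈ range K, c i * c k * ∫ y, cs ((ξ i - ξ k) * y) ∂μ := by
  rw [integral_finset_sum _ fun _ _ => integrable_finset_sum _ fun _ _ =>
    (integrable_cs μ _).const_mul _]
  refine Finset.sum_congr rfl fun i _ => ?_
  rw [integral_finset_sum _ fun _ _ => (integrable_cs μ _).const_mul _]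
  refine Finset.sum_congr rfl fun k _ => integral_const_mul _ _

theorem dsum_le (K : ℕ) (T : ℕ → ℕ → ℝ) {a b : ℝ} (ha : 0 ≤ a) (hd : ∀ i < K, T i i ≤ b)
    (hs : ∀ i k, T i k = T k i) (ho : ∀ i < K, ∀ k < i, T i k ≤ a) :
    ∑ i ∈ range K, ∑ k ∈ range K, T i k ≤ K * (K * a + b) := by
  have h : ∀ i ∈ range K, ∑ k ∈ range K, T i k ≤ K * a + b := by
    intro i hi
    have hi' := Finset.mem_range.1 hi
    calc ∑ k ∈ range K, T i k ≤ ∑ k ∈ range K, (a + if k = i then b else 0) := by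
          refine Finset.sum_le_sum fun k hk => ?_
          have hk' := Finset.mem_range.1 hk
          rcases lt_trichotomy k i with h | rfl | h
          · rw [if_neg h.ne, add_zero]; exact ho i hi' k h
          · rw [if_pos rfl]; linarith [hd k hk']
          · rw [if_neg h.ne', add_zero, hs]; exact ho k hk' i h
      _ = K * a + b := by
          rw [Finset.sum_add_distrib, Finset.sum_ite_eq' (range K) i, if_pos hi]; simp
  simpa only [Finset.card_range, nsmul_eq_mul] using Finset.sum_le_card_nsmul _ _ _ h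

theorem leb_cs {x K : ℝ} (hK : 0 < K) (hx : K ≤ x) :
    |∫ y in Set.Icc (-3 : ℝ) 3, cs (x * y)| ≤ 1 / K := by
  have hx0 : 0 < x := hK.trans_le hx
  rw [integral_Icc_eq_integral_Ioc, ← intervalIntegral.integral_of_le (by norm_num)]
  have h : ∀ y, cs (x * y) = Real.cos ((2 * π * x) * y) := fun y => by
    unfold cs; rw [mul_assoc (2 * π)]
  simp only [h]
  have hc : 0 < 2 * π * x := by positivity
  rw [intervalIntegral.integral_comp_mul_left (fun y => Real.cos y) hc.ne', integral_cos,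
    smul_eq_mul, abs_mul, abs_of_pos (inv_pos.2 hc)]
  have h2 : |Real.sin (2 * π * x * 3) - Real.sin (2 * π * x * -3)| ≤ 2 :=
    (abs_sub _ _).trans ((add_le_add (Real.abs_sin_le_one _) (Real.abs_sin_le_one _)).trans
      (by norm_num))
  calc _ ≤ (2 * π * x)⁻¹ * 2 := mul_le_mul_of_nonneg_left h2 (inv_pos.2 hc).le
    _ ≤ 1 / K := by
      rw [inv_mul_eq_div, div_le_div_iff₀ hc hK]
      nlinarith [Real.pi_gt_three]

theorem one_level (ν : Measure ℝ) [IsProbabilityMeasure ν] {ε w : ℝ} {K : ℕ} {ξ : ℕ → ℝ}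
    (hε : 0 < ε) (hw : 0 < w) (hK : 1 ≤ ε * K * w ^ 2)
    (hlow : ∀ i < K, w ≤ |∫ y, cs (ξ i * y) ∂ν|)
    (hsep : ∀ i < K, ∀ k < i, (K : ℝ) ≤ ξ i - ξ k)
    (hcor : ∀ i < K, ∀ k < i, |∫ y, cs ((ξ i - ξ k) * y) ∂ν -
      (∫ y, cs (ξ i * y) ∂ν) * ∫ y, cs (ξ k * y) ∂ν| ≤ ε * w ^ 2) :
    ∃ E : Set ℝ, MeasurableSet E ∧ ν.real Eᶜ ≤ 8 * ε ∧
      (volume.restrict (Set.Icc (-3 : ℝ) 3)).real E ≤ 28 * ε := by
  have hK0 : (0 : ℝ) < K := by
    rcases Nat.eq_zero_or_pos K with rfl | h
    · norm_num at hK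
    · exact_mod_cast h
  set φ : ℝ → ℝ := fun x => ∫ y, cs (x * y) ∂ν with hφ
  set c : ℕ → ℝ := fun i => (φ (ξ i))⁻¹ with hc
  have hφ0 : ∀ i < K, φ (ξ i) ≠ 0 := fun i hi => abs_pos.1 (hw.trans_le (hlow i hi))
  have hc1 : ∀ i < K, |c i| ≤ w⁻¹ := fun i hi => by
    rw [hc, abs_inv]; exact inv_anti₀ hw (hlow i hi)
  have hc2 : ∀ i < K, ∀ k < K, |c i * c k| ≤ (w ^ 2)⁻¹ := fun i hi k hk => by
    rw [abs_mul, sq, mul_inv]
    exact mul_le_mul (hc1 i hi) (hc1 k hk) (abs_nonneg _) (by positivity)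
  have hw2 : (w ^ 2)⁻¹ ≤ ε * K := by
    rw [inv_le_iff_one_le_mul₀ (by positivity)]; exact hK
  have hsym : ∀ (μ : Measure ℝ) (i k : ℕ), ∫ y, cs ((ξ i - ξ k) * y) ∂μ =
      ∫ y, cs ((ξ k - ξ i) * y) ∂μ := fun μ i k => by
    congr 1; ext y; rw [← cs_neg]; congr 1; ring
  set A : ℝ → ℝ := fun y => ∑ i ∈ range K, c i * cs (ξ i * y) with hA
  set H : ℝ → ℝ := fun y => ∑ i ∈ range K, ∑ k ∈ range K, c i * c k * cs ((ξ i - ξ k) * y)
    with hH
  have hAH : ∀ y, A y ^ 2 ≤ H y := fun y => by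
    have := sq_sum K c ξ y
    have h2 := sq_nonneg (∑ i ∈ range K, c i * sn (ξ i * y))
    simp only [hA, hH]; linarith
  have hAc : Continuous A := continuous_finset_sum _ fun i _ =>
    continuous_const.mul (continuous_cs.comp (continuous_const.mul continuous_id))
  have hAi : Integrable A ν := integrable_finset_sum _ fun _ _ => (integrable_cs ν _).const_mul _
  have hAint : ∫ y, A y ∂ν = K := by
    rw [hA, integral_finset_sum _ fun _ _ => (integrable_cs ν _).const_mul _]
    rw [Finset.sum_congr rfl (g := fun _ => (1 : ℝ))]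
    · simp
    · intro i hi
      rw [integral_const_mul]
      exact inv_mul_cancel₀ (hφ0 i (Finset.mem_range.1 hi))
  refine ⟨{y | (K : ℝ) / 2 ≤ A y}, measurableSet_le measurable_const hAc.measurable, ?_, ?_⟩
  · have hG : Integrable (fun y => H y - 2 * K * A y + K ^ 2) ν :=
      ((integrable_H ν K c ξ).sub (hAi.const_mul _)).add (integrable_const _)
    have h1 := mul_meas_ge_le_integral_of_nonneg
      (ae_of_all _ fun y => by have := hAH y; simp only [Pi.zero_apply]; nlinarith [sq_nonneg (A y - K)])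
      hG ((K : ℝ) ^ 2 / 4)
    have h2 : ∫ y, (H y - 2 * K * A y + K ^ 2) ∂ν ≤ K * (K * ε + (w ^ 2)⁻¹) := by
      have hHi : Integrable H ν := integrable_H ν K c ξ
      have hG' : Integrable (fun y => H y - 2 * K * A y) ν := hHi.sub (hAi.const_mul _)
      rw [integral_add hG' (integrable_const _),
        integral_sub hHi (hAi.const_mul _), integral_const_mul, hAint, hH,
        integral_H]
      have h3 := dsum_le K (fun i k => c i * c k * ∫ y, cs ((ξ i - ξ k) * y) ∂ν - 1)
        (a := ε) (b := (w ^ 2)⁻¹) hε.le (fun i hi => by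
          simp only [sub_self, zero_mul, cs_zero, integral_const, probReal_univ, smul_eq_mul,
            mul_one]
          linarith [le_abs_self (c i * c i), hc2 i hi i hi])
        (fun i k => by rw [hsym ν i k, mul_comm (c i)])
        (fun i hi k hk => by
          have h4 : c i * c k * ∫ y, cs ((ξ i - ξ k) * y) ∂ν - 1 =
              c i * c k * (∫ y, cs ((ξ i - ξ k) * y) ∂ν - φ (ξ i) * φ (ξ k)) := by
            have := hφ0 i hi
            have := hφ0 k (hk.trans hi)
            simp only [hc]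
            field_simp
          rw [h4]
          refine (le_abs_self _).trans ?_
          rw [abs_mul]
          refine (mul_le_mul (hc2 i hi k (hk.trans hi)) (hcor i hi k hk) (abs_nonneg _)
            (by positivity)).trans (le_of_eq ?_)
          field_simp)
      simp only [Finset.sum_sub_distrib, Finset.sum_const, Finset.card_range, nsmul_eq_mul,
        mul_one] at h3
      simp only [integral_const, probReal_univ, smul_eq_mul, one_mul]
      nlinarith
    have h3 : ν.real {y | (K : ℝ) / 2 ≤ A y}ᶜ ≤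
        ν.real {y | (K : ℝ) ^ 2 / 4 ≤ H y - 2 * K * A y + K ^ 2} := by
      refine measureReal_mono (fun y hy => ?_)
      have := hAH y
      simp only [Set.mem_compl_iff, Set.mem_setOf_eq, not_le] at hy ⊢
      nlinarith
    have h4 : (K : ℝ) ^ 2 / 4 * ν.real {y | (K : ℝ) / 2 ≤ A y}ᶜ ≤ K ^ 2 / 4 * (8 * ε) := by
      have := mul_le_mul_of_nonneg_left h3 (by positivity : 0 ≤ (K : ℝ) ^ 2 / 4)
      nlinarith
    exact le_of_mul_le_mul_left h4 (by positivity)
  · set μ := volume.restrict (Set.Icc (-3 : ℝ) 3) with hμ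
    haveI : IsFiniteMeasure μ := isFiniteMeasure_restrict_Icc _ _
    have h1 := mul_meas_ge_le_integral_of_nonneg
      (ae_of_all _ fun y => (sq_nonneg _).trans (hAH y))
      (integrable_H μ K c ξ) ((K : ℝ) ^ 2 / 4)
    have h2 : ∫ y, H y ∂μ ≤ K * (K * ((w ^ 2)⁻¹ * (1 / K)) + 6 * (w ^ 2)⁻¹) := by
      rw [integral_H]
      refine dsum_le K _ (by positivity) (fun i hi => ?_)
        (fun i k => by rw [hsym μ i k, mul_comm (c i)]) (fun i hi k hk => ?_)
      · simp only [sub_self, zero_mul, cs_zero, integral_const, smul_eq_mul, mul_one]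
        have : μ.real Set.univ = 6 := by
          simp [hμ, Measure.real]; norm_num
        rw [this]
        linarith [le_abs_self (c i * c i), hc2 i hi i hi]
      · refine (le_abs_self _).trans ?_
        rw [abs_mul]
        exact mul_le_mul (hc2 i hi k (hk.trans hi)) (leb_cs hK0 (hsep i hi k hk)) (abs_nonneg _)
          (by positivity)
    have h3 : μ.real {y | (K : ℝ) / 2 ≤ A y} ≤ μ.real {y | (K : ℝ) ^ 2 / 4 ≤ H y} := by
      refine measureReal_mono (fun y hy => ?_)
      have := hAH y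
      simp only [Set.mem_setOf_eq] at hy ⊢
      nlinarith
    have h5 : (K : ℝ) * ((w ^ 2)⁻¹ * (1 / K)) = (w ^ 2)⁻¹ := by field_simp
    rw [h5] at h2
    have h4 : (K : ℝ) ^ 2 / 4 * μ.real {y | (K : ℝ) / 2 ≤ A y} ≤ K ^ 2 / 4 * (28 * ε) := by
      have := mul_le_mul_of_nonneg_left h3 (by positivity : 0 ≤ (K : ℝ) ^ 2 / 4)
      nlinarith
    exact le_of_mul_le_mul_left h4 (by positivity)

theorem tsum_ne_top {μ : Measure ℝ} [IsFiniteMeasure μ] {s : ℕ → Set ℝ} {C : ℝ}
    (h : ∀ n, μ.real (s n) ≤ C * (1 / 2) ^ n) : ∑' n, μ (s n) ≠ ⊤ := by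
  have h1 : Summable fun n : ℕ => μ.real (s n) :=
    Summable.of_nonneg_of_le (fun _ => measureReal_nonneg) h (summable_geometric_two.mul_left C)
  have h2 : ∀ n, μ (s n) = ENNReal.ofReal (μ.real (s n)) := fun n =>
    (ofReal_measureReal (measure_ne_top _ _)).symm
  simp only [h2]
  rw [← ENNReal.ofReal_tsum_of_nonneg (fun _ => measureReal_nonneg) h1]
  exact ENNReal.ofReal_ne_top

theorem singular_of_levels (ν : Measure ℝ) [IsProbabilityMeasure ν]
    (hsupp : ν (Set.Icc (-3) 3)ᶜ = 0)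
    (h : ∀ ε : ℝ, 0 < ε → ε ≤ 1 → ∃ E : Set ℝ, MeasurableSet E ∧ ν.real Eᶜ ≤ 8 * ε ∧
      (volume.restrict (Set.Icc (-3 : ℝ) 3)).real E ≤ 28 * ε) : IsSingular ν := by
  choose E hE h1 h2 using fun n : ℕ => h ((1 / 2) ^ n) (by positivity)
    (pow_le_one₀ (by norm_num) (by norm_num))
  haveI : IsFiniteMeasure (volume.restrict (Set.Icc (-3 : ℝ) 3)) :=
    isFiniteMeasure_restrict_Icc _ _
  have h3 := measure_limsup_atTop_eq_zero (tsum_ne_top h1)
  have h4 := measure_limsup_atTop_eq_zero (tsum_ne_top h2)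
  have hm : MeasurableSet (limsup E atTop) := MeasurableSet.measurableSet_limsup hE
  refine ⟨limsup E atTop ∩ Set.Icc (-3) 3, hm.inter measurableSet_Icc, ?_, ?_⟩
  · rwa [Measure.restrict_apply hm] at h4
  · rw [← prob_compl_eq_zero_iff (hm.inter measurableSet_Icc), Set.compl_inter]
    refine measure_union_null (measure_mono_null (fun y hy => ?_) h3) hsupp
    rw [Set.mem_compl_iff, mem_limsup_iff_frequently_mem, not_frequently] at hy
    rw [mem_limsup_iff_frequently_mem]
    exact hy.frequently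

end Vale.Agent.P105
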