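import Mathlib

/-! Definitions for Bernoulli convolutions. -/

namespace Vale.Agent.P105

open MeasureTheory

/-- The fair coin on `Bool`: each of the two values has probability `1/2`. -/
noncomputable def coin : Measure Bool :=
  (2⁻¹ : ENNReal) • Measure.dirac true + (2⁻¹ : ENNReal) • Measure.dirac false

/-- The sign attached to a coin value: `true` gives `1` and `false` gives `-1`. -/
def sgn (b : Bool) : ℝ := if b then 1 else -1

/-- The Bernoulli convolution: the law of the series `∑ ε_n l ^ n` where the signs `ε_n` are
independent fair coin tosses (the infinite product of fair coins). -/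
noncomputable def bernoulli (l : ℝ) : Measure ℝ :=
  (Measure.infinitePi (fun _ : ℕ => coin)).map (fun ω : ℕ → Bool => ∑' n, sgn (ω n) * l ^ n)

/-- A measure on the line is singular if it gives full mass to a Borel set of Lebesgue
measure zero. -/
def IsSingular (ν : Measure ℝ) : Prop :=
  ∃ A : Set ℝ, MeasurableSet A ∧ volume A = 0 ∧ ν A = 1

/-- A Pisot number: a real algebraic integer larger than one all of whose other Galois conjugates
(the other complex roots of its minimal polynomial over the rationals) have modulus below one. -/
def IsPisot (β : ℝ) : Prop :=
  1 < β ∧ IsIntegral ℤ β ∧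
    ∀ z : ℂ, z ∈ (minpoly ℚ β).aroots ℂ → z ≠ (β : ℂ) → ‖z‖ < 1

end Vale.Agent.P105
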