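import Vale.Agent.P105.Start

/-! The system of frequencies. -/

namespace Vale.Agent.P105

open Finset Real

theorem good {l A : ℝ} (h0 : 0 < l) (h1 : l ≤ 2 / 3) (hT : Trip l A 1 2)
    (hI : IsIntegral ℤ l) (hI' : IsIntegral ℤ l⁻¹) {ε : ℝ} (hε : 0 < ε) :
    ∃ (t ρ w : ℝ) (L : ℕ), 1 ≤ t ∧ t * l ^ L ≤ 1 ∧ 1 ≤ L ∧ 0 < ρ ∧ Refl l t ρ ∧ 0 < w ∧ w ≤ 1 ∧
      (∀ n : ℕ, ρ ^ 2 * n ≤ 4 → Low l (t * l⁻¹ ^ n) w) ∧ ρ * L ≤ ε * w ^ 4 := by
  obtain ⟨k, C, B, hk, hC, h⟩ := iterate h0 h1 hT hI hI'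
  set D := 163 + 14 / k with hD
  have hD0 : 0 ≤ D := by positivity
  obtain ⟨n, hn⟩ := pow_unbounded_of_one_lt (40 * |B| + 20 * D + 5 * |Real.log ε|)
    (by norm_num : (1 : ℝ) < 21 / 20)
  obtain ⟨t, ρ, L, ⟨ht1, htL, hL, hρ0, hρk, hρ, hρL, ⟨r, hr, hT⟩, hc, hv0, hv⟩, hρn, hinv⟩ := h n
  have hR := hT.refl hr
  have hlL := pow_pos h0 L
  have hlow : ∀ m : ℕ, ρ ^ 2 * m ≤ 4 → Low l (t * l⁻¹ ^ m)
      (Real.exp (C - B * 2 ^ n) ^ 2 * Real.exp (-D)) := fun m hm =>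
    sym h0 h1 hR (by linarith) htL hk (fun j => by linarith [hc j]) hρ0.le hρk hρL hm hv0.le hv
  refine ⟨t, ρ, _, L, ht1, htL, hL, hρ0, hR, by positivity,
    (hlow 0 (by simp)).le_one, hlow, ?_⟩
  have h2 : (ρ * L) ^ 5 ≤ ρ := by
    have : (ρ * L) ^ 5 = ρ * (ρ ^ 4 * (L : ℝ) ^ 5) := by ring
    rw [this]
    exact mul_le_of_le_one_right hρ0.le hinv
  have h3 : Real.exp (-(21 / 10) ^ n) ≤
      (ε * (Real.exp (C - B * 2 ^ n) ^ 2 * Real.exp (-D)) ^ 4) ^ 5 := by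
    rw [← Real.exp_nat_mul, ← Real.exp_add, ← Real.exp_nat_mul]
    conv_rhs => rw [← Real.exp_log hε]
    rw [← Real.exp_add, ← Real.exp_nat_mul]
    apply Real.exp_le_exp.2
    push_cast
    have h4 : ((21 : ℝ) / 10) ^ n = (21 / 20) ^ n * 2 ^ n := by rw [← mul_pow]; norm_num
    have h5 : (1 : ℝ) ≤ 2 ^ n := one_le_pow₀ (by norm_num)
    have h6 := mul_le_mul_of_nonneg_right hn.le (by positivity : (0 : ℝ) ≤ 2 ^ n)
    have h7 := mul_le_mul_of_nonneg_right (le_abs_self B) (by positivity : (0 : ℝ) ≤ 2 ^ n)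
    have h8 := neg_abs_le (Real.log ε)
    have h9 := mul_le_mul_of_nonneg_left h5 (by positivity : (0 : ℝ) ≤ 20 * D + 5 * |Real.log ε|)
    nlinarith
  exact (pow_le_pow_iff_left₀ (by positivity) (by positivity) (by norm_num)).1
    (h2.trans (hρn.trans h3))

theorem bern {l : ℝ} (h0 : 0 < l) (h1 : l ≤ 2 / 3) (n : ℕ) : 1 + (n : ℝ) / 2 ≤ l⁻¹ ^ n := by
  have h2 : 1 + 1 / 2 ≤ l⁻¹ := by
    rw [le_inv_comm₀ (by norm_num) h0]; linarith
  have h3 := one_add_mul_le_pow (a := (1 / 2 : ℝ)) (by norm_num) n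
  have h4 := pow_le_pow_left₀ (by norm_num) h2 n
  linarith

theorem pair_bound {l t ρ : ℝ} {L e a b : ℕ} (h0 : 0 < l) (h1 : l ≤ 2 / 3) (hR : Refl l t ρ)
    (ht0 : 0 ≤ t) (ht : t * l ^ L ≤ 1) (he : l ^ e ≤ ρ) (hab : b + 2 * (L + e) ≤ a) (M : ℕ) :
    ∑ j ∈ range M, |sn (t * l⁻¹ ^ a * l ^ j)| * |sn (t * l⁻¹ ^ b * l ^ j)| ≤
      14 * ρ * (2 * L + 42 + 7 * ρ * b) + 21 * ρ := by
  have hρ0 : 0 ≤ ρ := (pow_pos h0 e).le.trans he
  have h2 : ∑ j ∈ range M, |sn (t * l⁻¹ ^ a * l ^ j)| * |sn (t * l⁻¹ ^ b * l ^ j)| ≤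
      ∑ j ∈ range (b + (L + e) + M), |sn (t * l⁻¹ ^ a * l ^ j)| * |sn (t * l⁻¹ ^ b * l ^ j)| :=
    Finset.sum_le_sum_of_subset_of_nonneg (Finset.range_mono (by omega))
      (fun j _ _ => by positivity)
  refine h2.trans ?_
  rw [Finset.sum_range_add]
  refine add_le_add ?_ ?_
  · refine le_trans (Finset.sum_le_sum (g := fun j => 14 * ρ * |sn (t * l⁻¹ ^ b * l ^ j)|)
      fun j hj => ?_) ?_
    · refine mul_le_mul_of_nonneg_right ?_ (abs_nonneg _)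
      have hj' := Finset.mem_range.1 hj
      rw [mul_inv_pow_lt h0 t (by omega : j ≤ a)]
      obtain ⟨d, hd, -, h3⟩ := hR (a - j)
      rw [h3]
      have h4 := tail_le (i := e) (J := a - j) h0 h1 ht0 ht (by omega)
      have h5 := abs_sn_le (t * l ^ (a - j))
      rw [abs_of_nonneg (by positivity : 0 ≤ t * l ^ (a - j))] at h5
      linarith [abs_sn_add_le (t * l ^ (a - j)) d]
    · rw [← Finset.mul_sum]
      exact mul_le_mul_of_nonneg_left (sum_sn_up h0 h1 hR ht0 ht b _) (by positivity)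
  · refine le_trans (Finset.sum_le_sum (g := fun j => 7 * ρ * l ^ j) fun j _ => ?_) ?_
    · refine (mul_le_of_le_one_left (abs_nonneg _) (abs_sn_le_one _)).trans ?_
      rw [mul_inv_pow_ge h0 t (by omega : b ≤ b + (L + e) + j)]
      refine (abs_sn_le _).trans ?_
      rw [abs_of_nonneg (by positivity)]
      have h4 := tail_le (i := e + j) (J := b + (L + e) + j - b) h0 h1 ht0 ht (by omega)
      rw [pow_add] at h4
      have h5 := mul_le_mul_of_nonneg_right he (pow_pos h0 j).le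
      linarith
    · rw [← Finset.mul_sum]
      nlinarith [geom_le h0 h1 M]

theorem freq {l A : ℝ} (h0 : 0 < l) (h1 : l ≤ 2 / 3) (hT : Trip l A 1 2)
    (hI : IsIntegral ℤ l) (hI' : IsIntegral ℤ l⁻¹) {ε : ℝ} (hε : 0 < ε) (hε1 : ε ≤ 1) :
    ∃ (K : ℕ) (ξ : ℕ → ℝ) (w : ℝ), 0 < w ∧ 1 ≤ ε * K * w ^ 2 ∧ (∀ i < K, Low l (ξ i) w) ∧
      (∀ i < K, ∀ k < i, (K : ℝ) ≤ ξ i - ξ k) ∧
      ∀ i < K, ∀ k < i, ∀ M, ∑ j ∈ range M, |sn (ξ i * l ^ j)| * |sn (ξ k * l ^ j)| ≤ ε * w ^ 2 := by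
  obtain ⟨t, ρ, w, L, ht1, htL, hL, hρ0, hR, hw0, hw1, hlow, hρL⟩ :=
    good h0 h1 hT hI hI' (ε := ε ^ 2 / 4000) (by positivity)
  have hL' : (1 : ℝ) ≤ L := by exact_mod_cast hL
  have hw2 : w ^ 2 ≤ 1 := pow_le_one₀ hw0.le hw1
  have hx0 : 0 < ε * w ^ 2 := by positivity
  have hx1 : ε * w ^ 2 ≤ 1 := mul_le_one₀ hε1 (by positivity) hw2
  have hρL' : ρ * L ≤ (ε * w ^ 2) ^ 2 / 4000 := hρL.trans (le_of_eq (by ring))
  set x := ε * w ^ 2 with hx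
  have hK1 : 1 / x ≤ (⌈1 / x⌉₊ : ℝ) := Nat.le_ceil _
  have hK2 : (⌈1 / x⌉₊ : ℝ) < 1 / x + 1 := Nat.ceil_lt_add_one (by positivity)
  set K := ⌈1 / x⌉₊
  have hK3 : K * x ≤ 2 := by
    have : (K : ℝ) * x ≤ (1 / x + 1) * x := mul_le_mul_of_nonneg_right hK2.le hx0.le
    rw [add_mul, one_div_mul_cancel hx0.ne'] at this
    linarith
  have hρ1 : ρ ≤ ρ * L := le_mul_of_one_le_right hρ0.le hL'
  have hKρ : K * ρ ≤ x / 2000 := by
    have h2 : K * ρ ≤ K * (x ^ 2 / 4000) :=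
      mul_le_mul_of_nonneg_left (hρ1.trans hρL') (by positivity)
    nlinarith
  have hρL1 : ρ * L ≤ x / 4000 := by nlinarith
  have he1 : 2 / ρ ≤ (⌈2 / ρ⌉₊ : ℝ) := Nat.le_ceil _
  have he2 : (⌈2 / ρ⌉₊ : ℝ) < 2 / ρ + 1 := Nat.ceil_lt_add_one (by positivity)
  set e := ⌈2 / ρ⌉₊
  have he3 : l ^ e ≤ ρ := by
    have h2 := bern h0 h1 e
    rw [div_le_iff₀ hρ0] at he1
    rw [inv_pow, le_inv_comm₀ (by positivity) (by positivity)] at h2
    refine h2.trans ?_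
    rw [inv_le_iff_one_le_mul₀ (by positivity)]
    nlinarith
  have he4 : ρ * e ≤ 3 := by
    have : ρ * e ≤ ρ * (2 / ρ + 1) := mul_le_mul_of_nonneg_left he2.le hρ0.le
    rw [mul_add, mul_div_cancel₀ _ hρ0.ne'] at this
    linarith
  have hn : ∀ i < K, ρ * (((K + i) * (2 * (L + e)) : ℕ) : ℝ) ≤ 16 * K := by
    intro i hi
    have hi' : (i : ℝ) ≤ K := by exact_mod_cast hi.le
    push_cast
    have h2 : ρ * (2 * (L + e)) ≤ 8 := by linarith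
    calc ρ * ((K + i) * (2 * (L + e))) = (K + i) * (ρ * (2 * (L + e))) := by ring
      _ ≤ (K + K) * 8 := mul_le_mul (by linarith) h2 (by positivity) (by positivity)
      _ = _ := by ring
  have hab : ∀ i k : ℕ, k < i → (K + k) * (2 * (L + e)) + 2 * (L + e) ≤ (K + i) * (2 * (L + e)) := by
    intro i k hk
    rw [← add_one_mul]
    exact Nat.mul_le_mul_right _ (by omega)
  refine ⟨K, fun i => t * l⁻¹ ^ ((K + i) * (2 * (L + e))), w, hw0, ?_, fun i hi => ?_,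
    fun i hi k hk => ?_, fun i hi k hk M => ?_⟩
  · rw [div_le_iff₀ hx0] at hK1
    linarith
  · refine hlow _ ?_
    have h2 := mul_le_mul_of_nonneg_left (hn i hi) hρ0.le
    nlinarith
  · obtain ⟨c, hc⟩ := Nat.exists_eq_add_of_le (hab i k hk)
    have h2 := bern h0 h1 ((K + k) * (2 * (L + e)))
    have h3 := bern h0 h1 (2 * (L + e) + c)
    have h4 : 2 * K ≤ (K + k) * (2 * (L + e)) := by
      calc 2 * K = K * 2 := mul_comm _ _
        _ ≤ _ := Nat.mul_le_mul (by omega) (by omega)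
    have h5 : (2 * K : ℝ) ≤ ((K + k) * (2 * (L + e)) : ℕ) := by exact_mod_cast h4
    have h6 : (2 : ℝ) ≤ (2 * (L + e) + c : ℕ) := by exact_mod_cast (by omega : 2 ≤ 2 * (L + e) + c)
    simp only []
    rw [hc, add_assoc, pow_add]
    set y := l⁻¹ ^ ((K + k) * (2 * (L + e)))
    set z := l⁻¹ ^ (2 * (L + e) + c)
    have h7 : (K : ℝ) ≤ y := by linarith
    have h8 : 1 ≤ z - 1 := by linarith
    have h9 : 0 ≤ y := le_trans (by positivity) h7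
    calc (K : ℝ) ≤ 1 * y * 1 := by linarith
      _ ≤ t * y * (z - 1) := mul_le_mul (mul_le_mul_of_nonneg_right ht1 h9) h8 zero_le_one
          (by positivity)
      _ = _ := by ring
  · refine (pair_bound h0 h1 hR (by linarith) htL he3 (hab i k hk) M).trans ?_
    have h2 := mul_le_mul_of_nonneg_left (hn k (hk.trans hi)) hρ0.le
    nlinarith

end Vale.Agent.P105
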