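import Vale.Agent.P105.Crit
import Vale.Agent.P105.Freq

/-! Singularity for quartic Salem numbers. -/

namespace Vale.Agent.P105

open Finset Real MeasureTheory Filter Topology Polynomial

theorem singular_main {l A : ℝ} (h0 : 0 < l) (h1 : l ≤ 2 / 3) (hT : Trip l A 1 2)
    (hI : IsIntegral ℤ l) (hI' : IsIntegral ℤ l⁻¹) : IsSingular (bernoulli l) := by
  haveI := bern_prob h0 h1
  refine singular_of_levels _ (bern_supp h0 h1) fun ε hε hε1 => ?_
  obtain ⟨K, ξ, w, hw, hK, hlow, hsep, hcor⟩ := freq h0 h1 hT hI hI' hε hε1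
  refine one_level _ hε hw hK (fun i hi => ?_) hsep (fun i hi k hk => ?_)
  · exact ge_of_tendsto' (tendsto_PP h0 h1 _).abs (hlow i hi)
  · refine le_of_tendsto' ((tendsto_PP h0 h1 _).sub
      ((tendsto_PP h0 h1 _).mul (tendsto_PP h0 h1 _))).abs fun M => ?_
    refine le_trans ?_ (hcor i hi k hk M)
    unfold PP
    rw [← Finset.prod_mul_distrib]
    refine (abs_prod_sub_le _ _ _ (fun j => abs_cs_le _) (fun j => ?_)).trans (le_of_eq ?_)
    · rw [abs_mul]; exact mul_le_one₀ (abs_cs_le _) (abs_nonneg _) (abs_cs_le _)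
    · refine Finset.sum_congr rfl fun j _ => ?_
      rw [sub_mul, cs_sub, add_sub_cancel_left, abs_mul]

/-- The reciprocal quartic with trace polynomial `y ^ 2 - a y + b`. -/
noncomputable def quart (a b : ℤ) : ℤ[X] := X ^ 4 - C a * X ^ 3 + C (b + 2) * X ^ 2 - C a * X + 1

theorem quart_monic (a b : ℤ) : (quart a b).Monic := by
  unfold quart; monicity!

theorem aeval_quart {R : Type*} [CommRing R] (a b : ℤ) (x : R) :
    aeval x (quart a b) = x ^ 4 - a * x ^ 3 + (b + 2) * x ^ 2 - a * x + 1 := by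
  unfold quart
  rw [map_add, map_sub, map_add, map_sub, map_mul, map_mul, map_mul, map_pow, map_pow, map_pow,
    aeval_X, aeval_C, aeval_C, map_one, algebraMap_int_eq, eq_intCast, eq_intCast]
  push_cast; ring

theorem quart_irred {a b : ℤ} (p : ℕ) [Fact p.Prime] (hp : ¬ p ∣ 5)
    (ha : (a : ZMod p) = -1) (hb : (b : ZMod p) = -1)
    (ho : orderOf (ZMod.unitOfCoprime p ((Fact.out : p.Prime).coprime_iff_not_dvd.mpr hp)) = 4) :
    Irreducible ((quart a b).map (algebraMap ℤ ℚ)) := by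
  rw [← (quart_monic a b).irreducible_iff_irreducible_map_fraction_map]
  refine (quart_monic a b).irreducible_of_irreducible_map (Int.castRingHom (ZMod p)) _ ?_
  haveI : Fact (Nat.Prime 5) := ⟨by norm_num⟩
  have h : (quart a b).map (Int.castRingHom (ZMod p)) = cyclotomic 5 (ZMod p) := by
    rw [cyclotomic_prime]
    simp only [quart, Polynomial.map_add, Polynomial.map_sub, Polynomial.map_mul,
      Polynomial.map_pow, map_X, map_C, Polynomial.map_one,
      Finset.sum_range_succ, Finset.sum_range_zero]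
    have h1 : Int.castRingHom (ZMod p) a = -1 := ha
    have h2 : Int.castRingHom (ZMod p) (b + 2) = 1 := by
      rw [eq_intCast]; push_cast; rw [hb]; ring
    rw [h1, h2, map_neg, map_one]; ring
  rw [h]
  refine ZMod.irreducible_of_dvd_cyclotomic_of_natDegree hp dvd_rfl ?_
  rw [ho, natDegree_cyclotomic]; decide

theorem salem {l : ℝ} {a b : ℤ} (h0 : 0 < l) (h1 : l ≤ 2 / 3)
    (hl : l ^ 4 - a * l ^ 3 + (b + 2) * l ^ 2 - a * l + 1 = 0)
    (hy : |a - (l + l⁻¹)| ≤ 2) (hirr : Irreducible ((quart a b).map (algebraMap ℤ ℚ))) :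
    ¬ IsPisot l⁻¹ ∧ IsSingular (bernoulli l) := by
  have hl0 := h0.ne'
  have hl' : l⁻¹ ^ 4 - a * l⁻¹ ^ 3 + (b + 2) * l⁻¹ ^ 2 - a * l⁻¹ + 1 = 0 := by
    field_simp
    linarith
  have hI : IsIntegral ℤ l := ⟨quart a b, quart_monic a b, (aeval_quart a b l).trans hl⟩
  have hI' : IsIntegral ℤ l⁻¹ := ⟨quart a b, quart_monic a b, (aeval_quart a b l⁻¹).trans hl'⟩
  set A := Real.arccos ((a - (l + l⁻¹)) / 2) with hA
  have hcos : Real.cos A = (a - (l + l⁻¹)) / 2 :=
    Real.cos_arccos (by linarith [(abs_le.1 hy).1]) (by linarith [(abs_le.1 hy).2])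
  have ha : (l + l⁻¹) + 2 * Real.cos A = a := by rw [hcos]; ring
  have hb : (l + l⁻¹) * (2 * Real.cos A) = b := by
    rw [hcos]
    field_simp
    linarith
  refine ⟨?_, singular_main h0 h1 (trip_base h0 ha hb) hI hI'⟩
  rintro ⟨hβ, -, h⟩
  have hmin : (quart a b).map (algebraMap ℤ ℚ) = minpoly ℚ l⁻¹ :=
    minpoly.eq_of_irreducible_of_monic hirr
      (by rw [aeval_map_algebraMap, aeval_quart]; exact hl') ((quart_monic a b).map _)
  set z := Complex.exp (A * Complex.I) with hz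
  have hn : ‖z‖ = 1 := Complex.norm_exp_ofReal_mul_I A
  have hz2 : z ^ 2 - 2 * (Real.cos A : ℂ) * z + 1 = 0 := by
    have h2 := Complex.cos_sq_add_sin_sq (A : ℂ)
    rw [hz, Complex.exp_mul_I, Complex.ofReal_cos]
    linear_combination (Complex.sin A) ^ 2 * Complex.I_sq - h2
  have h3 := h z (by
    rw [← hmin, mem_aroots, aeval_map_algebraMap, aeval_quart]
    refine ⟨((quart_monic a b).map _).ne_zero, ?_⟩
    have ha' : ((l + l⁻¹ : ℝ) : ℂ) + 2 * (Real.cos A : ℂ) = a := by exact_mod_cast ha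
    have hb' : ((l + l⁻¹ : ℝ) : ℂ) * (2 * (Real.cos A : ℂ)) = b := by exact_mod_cast hb
    rw [← ha', ← hb']
    linear_combination (z ^ 2 - ((l + l⁻¹ : ℝ) : ℂ) * z + 1) * hz2) (by
    intro h4
    rw [h4, Complex.norm_real, Real.norm_eq_abs, abs_of_pos (by linarith)] at hn
    linarith)
  linarith

theorem irred1 : Irreducible ((quart 1 (-3)).map (algebraMap ℤ ℚ)) :=
  quart_irred 2 (by norm_num) (by decide) (by decide) (by
    rw [orderOf_eq_iff (by norm_num)]
    decide)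

theorem irred2 : Irreducible ((quart 2 (-1)).map (algebraMap ℤ ℚ)) :=
  quart_irred 3 (by norm_num) (by decide) (by decide) (by
    rw [orderOf_eq_iff (by norm_num)]
    decide)

theorem case1 {l : ℝ} (h0 : 1 / 2 < l) (h1 : l < 1) (hl : l ^ 4 - l ^ 3 - l ^ 2 - l + 1 = 0) :
    ¬ IsPisot l⁻¹ ∧ IsSingular (bernoulli l) := by
  have hl0 : 0 < l := by linarith
  have h2 : l ≤ 2 / 3 := by
    by_contra h
    push Not at h
    nlinarith [mul_pos (sub_pos.2 h) (sub_pos.2 h1), pow_pos hl0 2]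
  have h3 : l⁻¹ < 2 := by rw [inv_lt_comm₀ hl0 (by norm_num)]; linarith
  have h4 := inv_pos.2 hl0
  refine salem (a := 1) (b := -3) hl0 h2 (by push_cast; linarith) ?_ irred1
  rw [abs_le]; push_cast; constructor <;> linarith

theorem case2 {l : ℝ} (h0 : 1 / 2 < l) (h1 : l < 1)
    (hl : l ^ 4 - 2 * l ^ 3 + l ^ 2 - 2 * l + 1 = 0) :
    ¬ IsPisot l⁻¹ ∧ IsSingular (bernoulli l) := by
  have hl0 : 0 < l := by linarith
  have h2 : l ≤ 2 / 3 := by
    by_contra h
    push Not at h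
    nlinarith [mul_pos (sub_pos.2 h) (sub_pos.2 h1), pow_pos hl0 2]
  have h3 : l⁻¹ < 2 := by rw [inv_lt_comm₀ hl0 (by norm_num)]; linarith
  have h4 := inv_pos.2 hl0
  refine salem (a := 2) (b := -1) hl0 h2 (by push_cast; linarith) ?_ irred2
  rw [abs_le]; push_cast; constructor <;> linarith

theorem exists_root (f : ℝ → ℝ) (hf : Continuous f) (h0 : 0 < f (1 / 2)) (h1 : f 1 < 0) :
    ∃ l : ℝ, 1 / 2 < l ∧ l < 1 ∧ f l = 0 := by
  obtain ⟨l, hl, h⟩ := intermediate_value_Ioo' (by norm_num : (1 / 2 : ℝ) ≤ 1) hf.continuousOn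
    (⟨h1, h0⟩ : (0 : ℝ) ∈ Set.Ioo (f 1) (f (1 / 2)))
  exact ⟨l, hl.1, hl.2, h⟩

end Vale.Agent.P105
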