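import Vale.Agent.P105.Step

/-! The initial state and the iteration. -/

namespace Vale.Agent.P105

open Finset Real

theorem cs_ne_zero {x : ℝ} (hx : IsIntegral ℤ x) : cs x ≠ 0 := by
  intro h
  obtain ⟨k, hk⟩ := Real.cos_eq_zero_iff.1 h
  have h1 : x = algebraMap ℚ ℝ ((2 * k + 1) / 4) := by
    have h2 : π * x = π * ((2 * k + 1) / 4) := by linarith
    have h3 := mul_left_cancel₀ Real.pi_ne_zero h2
    rw [h3]; simp
  rw [h1, isIntegral_algebraMap_iff (algebraMap ℚ ℝ).injective] at hx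
  obtain ⟨y, hy⟩ := IsIntegrallyClosed.isIntegral_iff.1 hx
  have h2 : (4 * y : ℚ) = 2 * k + 1 := by
    have : (y : ℚ) = (2 * k + 1) / 4 := by simpa using hy
    rw [this]; ring
  have h3 : 4 * y = 2 * k + 1 := by exact_mod_cast h2
  omega

theorem exists_lb (f : ℕ → ℝ) (hf : ∀ m, 0 < f m) (N : ℕ) :
    (∃ k, 0 < k ∧ ∀ m, N ≤ m → k ≤ f m) → ∃ k, 0 < k ∧ ∀ m, k ≤ f m := by
  induction N with
  | zero => rintro ⟨k, hk, h⟩; exact ⟨k, hk, fun m => h m (Nat.zero_le _)⟩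
  | succ N ih =>
    rintro ⟨k, hk, h⟩
    refine ih ⟨min k (f N), lt_min hk (hf N), fun m hm => ?_⟩
    rcases hm.eq_or_lt with rfl | hm
    · exact min_le_right _ _
    · exact (min_le_left _ _).trans (h m hm)

theorem level0 {l A : ℝ} (h0 : 0 < l) (h1 : l ≤ 2 / 3) (hT : Trip l A 1 2)
    (hI : IsIntegral ℤ l) (hI' : IsIntegral ℤ l⁻¹) :
    ∃ (t r k : ℝ) (L : ℕ), 1 ≤ t ∧ t * l ^ L ≤ 1 ∧ |r| ≤ 1 / 100 ∧ Trip l A t r ∧ 0 < k ∧
      ∀ n j : ℕ, k ≤ |cs (t * l⁻¹ ^ n * l ^ j)| := by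
  obtain ⟨J, s, hJ, hs, hsin, hcase⟩ := dirich A (Q := 10000) (J0 := 2) (by norm_num)
  have hs4 : (s : ℝ) ≤ 4 := by
    rcases hcase with ⟨h, -⟩ | ⟨h, -⟩
    · rw [h]; norm_num
    · exact_mod_cast h
  have hr : |2 * 2 * Real.sin (J * A)| ≤ 1 / 100 := by
    rw [abs_mul, abs_of_pos (by norm_num : (0 : ℝ) < 2 * 2)]
    have h2 : π / ((10000 : ℕ) + 1) ≤ 1 / 2000 := by
      rw [div_le_iff₀ (by positivity)]; push_cast; linarith [two_pi_le]
    have h3 : (s : ℝ) * (π / ((10000 : ℕ) + 1)) ≤ 4 * (1 / 2000) :=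
      mul_le_mul hs4 h2 (by positivity) (by norm_num)
    linarith
  have hT' := hT.step h0 J
  have ht1 := new_ge (t := 1) h0 h1 le_rfl hJ
  have htL := new_le (t := 1) (L := 0) (J := J) h0 zero_le_one (by simp)
  have htI : IsIntegral ℤ (1 * (l⁻¹ ^ J - l ^ J)) :=
    isIntegral_one.mul ((hI'.pow J).sub (hI.pow J))
  set t := 1 * (l⁻¹ ^ J - l ^ J)
  have hR := hT'.refl hr
  obtain ⟨i, hi⟩ := exists_pow_lt_of_lt_one (x := 1 / 100) (y := l) (by norm_num) (by linarith)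
  obtain ⟨k, hk, hf⟩ := exists_lb (fun m => min |cs (t * l ^ m)| |cs (t * l⁻¹ ^ m)|)
    (fun m => lt_min (abs_pos.2 (cs_ne_zero (htI.mul (hI.pow m))))
      (abs_pos.2 (cs_ne_zero (htI.mul (hI'.pow m))))) (0 + J + i) ⟨1 / 2, by norm_num, by
      intro m hm
      have h2 : t * l ^ m ≤ 1 / 100 := (tail_le h0 h1 (by linarith) htL hm).trans hi.le
      have h3 : 0 ≤ t * l ^ m := by positivity
      refine le_min ?_ ?_
      · refine le_trans ?_ ((cs_ge _).trans (le_abs_self _))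
        nlinarith
      · obtain ⟨d, hd, h4, -⟩ := hR m
        rw [h4]
        refine le_trans ?_ ((cs_ge _).trans (le_abs_self _))
        have := abs_le.1 hd
        nlinarith⟩
  refine ⟨t, _, k, 0 + J, ht1, htL, hr, hT', hk, fun n j => ?_⟩
  rcases le_total j n with h | h
  · rw [mul_inv_pow_lt h0 t h]
    exact (hf _).trans (min_le_right _ _)
  · rw [mul_inv_pow_ge h0 t h]
    exact (hf _).trans (min_le_left _ _)

theorem level1 {l A : ℝ} (h0 : 0 < l) (h1 : l ≤ 2 / 3) (hT : Trip l A 1 2)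
    (hI : IsIntegral ℤ l) (hI' : IsIntegral ℤ l⁻¹) :
    ∃ (k t ρ v : ℝ) (L : ℕ), 0 < k ∧ St l A k t L ρ v := by
  obtain ⟨t, r, k, L, ht1, htL, hr, hT, hk, hc⟩ := level0 h0 h1 hT hI hI'
  obtain ⟨i, hi⟩ := exists_pow_lt_of_lt_one (x := k / 100) (y := l) (by positivity) (by linarith)
  set J0 := L + i + 2 with hJ0
  set e := min (k / 200) (1 / 10 ^ 15) with he
  have he0 : 0 < e := lt_min (by positivity) (by positivity)
  obtain ⟨Q, hQ⟩ := exists_nat_ge (L + 2 * J0 * (L + 2 * J0) + 2 * J0 / e : ℝ)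
  have hJ1 : (2 : ℝ) ≤ J0 := by rw [hJ0]; push_cast; linarith [Nat.cast_nonneg (α := ℝ) L, Nat.cast_nonneg (α := ℝ) i]
  have hL0 : (0 : ℝ) ≤ L := Nat.cast_nonneg _
  have hx : (0 : ℝ) ≤ 2 * J0 / e := by positivity
  have hy : (0 : ℝ) < 2 * J0 * (L + 2 * J0) := by positivity
  have hQ0 : 0 < Q := by
    have : (0 : ℝ) < Q := by linarith
    exact_mod_cast this
  obtain ⟨J, s, hJ, hs, hsin, hcase⟩ := dirich A (J0 := J0) hQ0
  have hs' : (1 : ℝ) ≤ s := by exact_mod_cast hs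
  have hs2 : (s : ℝ) ≤ 2 * J0 := by
    rcases hcase with ⟨h, -⟩ | ⟨h, -⟩
    · rw [h]; push_cast; linarith
    · exact_mod_cast h
  have hρe : s / (10 * ((Q : ℝ) + 1)) ≤ e := by
    rw [div_le_iff₀ (by positivity)]
    have h2 : 2 * J0 / e ≤ Q := by linarith
    rw [div_le_iff₀ he0] at h2
    nlinarith
  have ht0 : 0 ≤ t := by linarith
  have htail : t * l ^ J ≤ l ^ i := tail_le h0 h1 ht0 htL (by omega)
  have hcs := new_cs h0 h1 ht0 (hc J)
  have hρk := hρe.trans (min_le_left _ _)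
  obtain ⟨v, hv0, hv⟩ := low_exists (x := t * (l⁻¹ ^ J - l ^ J)) h0 h1 (fun j h => by
    have := hcs j
    rw [h, abs_zero] at this
    linarith)
  refine ⟨k / 2, t * (l⁻¹ ^ J - l ^ J), s / (10 * ((Q : ℝ) + 1)), v, L + J, by positivity,
    new_ge h0 h1 ht1 (by omega), new_le h0 ht0 htL, by omega, by positivity, by linarith,
    hρe.trans (min_le_right _ _), ?_, ⟨_, ?_, hT.step h0 J⟩, fun j => ?_, hv0, hv⟩
  · rw [div_mul_eq_mul_div, div_le_one (by positivity)]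
    push_cast
    rcases hcase with ⟨h, h'⟩ | ⟨-, h'⟩
    · have h2 : (J : ℝ) ≤ Q := by exact_mod_cast h'
      rw [h]; push_cast; linarith
    · have h2 : (J : ℝ) ≤ 2 * J0 := by exact_mod_cast h'
      have h3 : (s : ℝ) * (L + J) ≤ 2 * J0 * (L + 2 * J0) :=
        mul_le_mul hs2 (by linarith) (by positivity) (by positivity)
      linarith
  · rw [abs_mul, abs_mul, abs_two]
    calc 2 * |r| * |Real.sin (J * A)| ≤ 2 * (1 / 100) * (s * (π / (Q + 1))) :=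
          mul_le_mul (by linarith) hsin (abs_nonneg _) (by positivity)
      _ = s / (10 * ((Q : ℝ) + 1)) * (π / 5) := by field_simp; ring
      _ ≤ _ := mul_le_of_le_one_right (by positivity) (by linarith [two_pi_le])
  · have h3 : l ^ (L + J) ≤ l ^ i := pow_le_pow_of_le_one h0.le (by linarith) (by omega)
    linarith [hcs j]

theorem iterate {l A : ℝ} (h0 : 0 < l) (h1 : l ≤ 2 / 3) (hT : Trip l A 1 2)
    (hI : IsIntegral ℤ l) (hI' : IsIntegral ℤ l⁻¹) :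
    ∃ k C B : ℝ, 0 < k ∧ 0 ≤ C ∧ ∀ n : ℕ, ∃ (t ρ : ℝ) (L : ℕ),
      St l A k t L ρ (Real.exp (C - B * 2 ^ n)) ∧ ρ ≤ Real.exp (-(21 / 10) ^ n) ∧
        ρ ^ 4 * (L : ℝ) ^ 5 ≤ 1 := by
  obtain ⟨k, t, ρ, v, L, hk, hS⟩ := level1 h0 h1 hT hI hI'
  obtain ⟨t1, ρ1, L1, hS1, -, hinv⟩ := step h0 h1 hk hS
  set C := 166 + 14 / k with hC
  have hv1 : 0 < v ^ 2 * Real.exp (-C) := hS1.2.2.2.2.2.2.2.2.2.1
  refine ⟨k, C, C - Real.log (v ^ 2 * Real.exp (-C)), hk, by positivity, fun n => ?_⟩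
  induction n with
  | zero =>
    refine ⟨t1, ρ1, L1, ?_, ?_, hinv⟩
    · rw [pow_zero, mul_one, sub_sub_cancel, Real.exp_log hv1]; exact hS1
    · have h2 := hS1.2.2.2.2.2.1
      have h3 := Real.add_one_le_exp (-(1 / 2))
      have h4 : Real.exp (-(21 / 10) ^ 0) = Real.exp (-(1 / 2)) * Real.exp (-(1 / 2)) := by
        rw [← Real.exp_add]; norm_num
      rw [h4]
      nlinarith
  | succ n ih =>
    obtain ⟨t, ρ, L, hS, hρ, hinv⟩ := ih
    obtain ⟨t', ρ', L', hS', hρ', hinv'⟩ := step h0 h1 hk hS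
    refine ⟨t', ρ', L', ?_, ?_, hinv'⟩
    · convert hS' using 1
      rw [← hC, ← Real.exp_nat_mul, ← Real.exp_add]
      congr 1; push_cast; ring
    · have hρ0 := hS.2.2.2.1
      have hρ1 := hS.2.2.2.2.2.1
      have hρ'0 := hS'.2.2.2.1
      have h2 : ρ' ^ 10 ≤ ρ ^ 21 := by
        calc ρ' ^ 10 ≤ (28 * L * ρ ^ 3) ^ 10 := pow_le_pow_left₀ hρ'0.le hρ' 10
          _ = (28 ^ 10 * ρ) * (ρ ^ 4 * (L : ℝ) ^ 5) ^ 2 * ρ ^ 21 := by ring
          _ ≤ ρ ^ 21 := by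
            refine mul_le_of_le_one_left (by positivity) (mul_le_one₀ ?_ (by positivity) ?_)
            · linarith
            · exact pow_le_one₀ (by positivity) hinv
      have h3 : ρ ^ 21 ≤ Real.exp (-(21 / 10) ^ (n + 1)) ^ 10 := by
        calc ρ ^ 21 ≤ Real.exp (-(21 / 10) ^ n) ^ 21 := pow_le_pow_left₀ hρ0.le hρ 21
          _ = _ := by
            rw [← Real.exp_nat_mul, ← Real.exp_nat_mul]; congr 1; push_cast; ring
      exact (pow_le_pow_iff_left₀ hρ'0.le (Real.exp_pos _).le (by norm_num)).1 (h2.trans h3)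

end Vale.Agent.P105
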