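import Vale.Agent.P105.Sym

/-! The recursive construction. -/

namespace Vale.Agent.P105

open Finset Real

/-- State of the recursion. -/
def St (l A k t : ℝ) (L : ℕ) (ρ v : ℝ) : Prop :=
  1 ≤ t ∧ t * l ^ L ≤ 1 ∧ 1 ≤ L ∧ 0 < ρ ∧ ρ ≤ k / 100 ∧ ρ ≤ 1 / 10 ^ 15 ∧ ρ * L ≤ 1 ∧
    (∃ r, |r| ≤ ρ ∧ Trip l A t r) ∧ (∀ j : ℕ, k + 14 * ρ + 14 * l ^ L ≤ |cs (t * l ^ j)|) ∧
    0 < v ∧ Low l t v

theorem dirich (A : ℝ) {Q J0 : ℕ} (hQ : 0 < Q) :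
    ∃ J s : ℕ, J0 ≤ J ∧ 1 ≤ s ∧ |Real.sin (J * A)| ≤ s * (π / (Q + 1)) ∧
      ((s = 1 ∧ J ≤ Q) ∨ (s ≤ 2 * J0 ∧ J ≤ 2 * J0)) := by
  obtain ⟨q, hq0, hqQ, hq⟩ := Real.exists_nat_abs_mul_sub_round_le (A / π) hQ
  set p := round ((q : ℝ) * (A / π))
  have hs : ∀ s : ℕ, |Real.sin ((s * q : ℕ) * A)| ≤ s * (π / (Q + 1)) := by
    intro s
    have h1 : ((s * q : ℕ) : ℝ) * A = s * π * (q * (A / π) - p) + ((s * p : ℤ) : ℝ) * π := by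
      push_cast
      field_simp
      ring
    rw [h1, Real.sin_add_int_mul_pi, abs_mul]
    have h2 : |((-1 : ℝ)) ^ ((s : ℤ) * p)| = 1 := by
      rw [abs_zpow]; simp
    rw [h2, one_mul]
    refine Real.abs_sin_le_abs.trans ?_
    rw [abs_mul, abs_of_nonneg (by positivity)]
    calc (s : ℝ) * π * |q * (A / π) - p| ≤ s * π * (1 / (Q + 1)) :=
          mul_le_mul_of_nonneg_left hq (by positivity)
      _ = _ := by ring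
  rcases le_or_gt J0 q with h | h
  · exact ⟨q, 1, h, le_rfl, by simpa using hs 1, Or.inl ⟨rfl, hqQ⟩⟩
  · have h1 : J0 < (J0 / q + 1) * q := by
      rw [mul_comm]; exact Nat.lt_mul_div_succ J0 hq0
    have h2 : J0 / q * q ≤ J0 := Nat.div_mul_le_self J0 q
    have h3 : (J0 / q + 1) * q ≤ 2 * J0 := by rw [add_mul]; omega
    have h4 : J0 / q + 1 ≤ (J0 / q + 1) * q := Nat.le_mul_of_pos_right _ hq0
    exact ⟨(J0 / q + 1) * q, J0 / q + 1, h1.le, Nat.le_add_left _ _, hs _, Or.inr ⟨h4.trans h3, h3⟩⟩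

theorem new_ge {l t : ℝ} {J : ℕ} (h0 : 0 < l) (h1 : l ≤ 2 / 3) (ht : 1 ≤ t) (hJ : 2 ≤ J) :
    1 ≤ t * (l⁻¹ ^ J - l ^ J) := by
  have h2 : 3 / 2 ≤ l⁻¹ := by
    rw [le_inv_comm₀ (by norm_num) h0]; linarith
  have h3 : l⁻¹ ^ 2 ≤ l⁻¹ ^ J := pow_le_pow_right₀ (by linarith) hJ
  have h4 : l ^ J ≤ 1 := pow_le_one₀ h0.le (by linarith)
  have h5 : 1 ≤ l⁻¹ ^ J - l ^ J := by nlinarith
  nlinarith

theorem new_le {l t : ℝ} {L J : ℕ} (h0 : 0 < l) (ht0 : 0 ≤ t) (ht : t * l ^ L ≤ 1) :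
    t * (l⁻¹ ^ J - l ^ J) * l ^ (L + J) ≤ 1 := by
  have h1 : t * (l⁻¹ ^ J - l ^ J) * l ^ (L + J) = t * l ^ L - t * l ^ J * l ^ (L + J) := by
    have := h0.ne'
    rw [pow_add, inv_pow]
    field_simp
  have h2 : 0 ≤ t * l ^ J * l ^ (L + J) := by positivity
  linarith

theorem new_cs {l t k : ℝ} {J : ℕ} (h0 : 0 < l) (h1 : l ≤ 2 / 3) (ht0 : 0 ≤ t)
    (hc : ∀ j : ℕ, k ≤ |cs (t * l⁻¹ ^ J * l ^ j)|) (j : ℕ) :
    k - 7 * (t * l ^ J) ≤ |cs (t * (l⁻¹ ^ J - l ^ J) * l ^ j)| := by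
  have h2 := abs_cs_add_ge (t * l⁻¹ ^ J * l ^ j) (-(t * l ^ J * l ^ j))
  rw [abs_neg, abs_of_nonneg (by positivity : 0 ≤ t * l ^ J * l ^ j)] at h2
  rw [show t * (l⁻¹ ^ J - l ^ J) * l ^ j = t * l⁻¹ ^ J * l ^ j + -(t * l ^ J * l ^ j) by ring]
  have h4 : l ^ j ≤ 1 := pow_le_one₀ h0.le (by linarith)
  have h5 : t * l ^ J * l ^ j ≤ t * l ^ J := mul_le_of_le_one_right (by positivity) h4
  linarith [hc j]

theorem tail_le {l t : ℝ} {L J i : ℕ} (h0 : 0 < l) (h1 : l ≤ 2 / 3) (ht0 : 0 ≤ t)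
    (ht : t * l ^ L ≤ 1) (hJ : L + i ≤ J) : t * l ^ J ≤ l ^ i := by
  have h2 : l ^ J ≤ l ^ (L + i) := pow_le_pow_of_le_one h0.le (by linarith) hJ
  calc t * l ^ J ≤ t * l ^ (L + i) := mul_le_mul_of_nonneg_left h2 ht0
    _ = t * l ^ L * l ^ i := by rw [pow_add, mul_assoc]
    _ ≤ l ^ i := mul_le_of_le_one_left (by positivity) ht

theorem rho_mul_le {ρ : ℝ} {L : ℕ} (h0 : 0 < ρ) (h1 : ρ ≤ 1) (h : ρ ^ 4 * (L : ℝ) ^ 5 ≤ 1) :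
    ρ * L ≤ 1 := by
  have h2 : (ρ * L) ^ 5 ≤ 1 := by
    have : (ρ * L) ^ 5 = ρ * (ρ ^ 4 * (L : ℝ) ^ 5) := by ring
    rw [this]
    exact mul_le_one₀ h1 (by positivity) h
  exact (pow_le_one_iff_of_nonneg (by positivity) (by norm_num)).1 h2

set_option maxHeartbeats 800000 in
theorem params (A : ℝ) {ρ : ℝ} {L : ℕ} (hL : 1 ≤ L) (hρ0 : 0 < ρ) (hρ : ρ ≤ 1 / 10 ^ 15)
    (hρL : ρ * L ≤ 1) : ∃ (J : ℕ) (ρ' : ℝ), 2 * L ≤ J ∧ 0 < ρ' ∧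
      2 * ρ * |Real.sin (J * A)| ≤ ρ' ∧ ρ' ≤ 28 * L * ρ ^ 3 ∧ ρ' ≤ ρ / 2 ∧
      ρ' ^ 4 * ((L + J : ℕ) : ℝ) ^ 5 ≤ 1 ∧ ρ ^ 2 * J ≤ 4 := by
  have hρ1 : ρ ≤ 1 := by linarith
  have hρ2 : 1 ≤ 1 / ρ ^ 2 := by
    rw [le_div_iff₀ (by positivity)]; nlinarith
  have hQ : 0 < ⌊1 / ρ ^ 2⌋₊ := Nat.floor_pos.2 hρ2
  obtain ⟨J, s, hJ, hs, hsin, hcase⟩ := dirich A (J0 := 2 * L) hQ
  have hQ1 : (⌊1 / ρ ^ 2⌋₊ : ℝ) ≤ 1 / ρ ^ 2 := Nat.floor_le (by positivity)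
  have hQ2 : 1 / ρ ^ 2 < (⌊1 / ρ ^ 2⌋₊ : ℝ) + 1 := Nat.lt_floor_add_one _
  set Q := ⌊1 / ρ ^ 2⌋₊
  have hQ3 : π / (Q + 1) ≤ 7 / 2 * ρ ^ 2 := by
    rw [div_le_iff₀ (by positivity)]
    rw [div_lt_iff₀ (by positivity)] at hQ2
    nlinarith [two_pi_le]
  have hL' : (1 : ℝ) ≤ L := by exact_mod_cast hL
  have hs' : (1 : ℝ) ≤ s := by exact_mod_cast hs
  have hJ' : (2 * L : ℝ) ≤ J := by exact_mod_cast hJ
  have hsL : (s : ℝ) ≤ 4 * L := by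
    rcases hcase with ⟨h, -⟩ | ⟨h, -⟩
    · rw [h]; push_cast; linarith
    · have : (s : ℝ) ≤ ((2 * (2 * L) : ℕ) : ℝ) := by exact_mod_cast h
      push_cast at this; linarith
  have hρ' : 7 * s * ρ ^ 3 ≤ 28 * L * ρ ^ 3 := by
    have := pow_pos hρ0 3
    nlinarith
  have hρ'' : 7 * s * ρ ^ 3 ≤ ρ / 2 := by
    have h2 : 28 * L * ρ ^ 3 = 28 * (ρ * L) * ρ * ρ := by ring
    have h3 : 28 * (ρ * L) * ρ ≤ 1 / 2 := by nlinarith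
    nlinarith
  have hinv : (7 * s * ρ ^ 3) ^ 4 * ((L + J : ℕ) : ℝ) ^ 5 ≤ 1 := by
    rcases hcase with ⟨h, h'⟩ | ⟨-, h'⟩
    · have h2 : (J : ℝ) ≤ Q := by exact_mod_cast h'
      have h3 : ρ ^ 2 * ((L + J : ℕ) : ℝ) ≤ 2 := by
        push_cast
        rw [le_div_iff₀ (by positivity)] at hQ1
        nlinarith [pow_pos hρ0 2]
      have h4 : (ρ ^ 2 * ((L + J : ℕ) : ℝ)) ^ 5 ≤ 2 ^ 5 := pow_le_pow_left₀ (by positivity) h3 5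
      have h5 : (7 * s * ρ ^ 3) ^ 4 * ((L + J : ℕ) : ℝ) ^ 5 =
          7 ^ 4 * ρ ^ 2 * (ρ ^ 2 * ((L + J : ℕ) : ℝ)) ^ 5 := by rw [h]; push_cast; ring
      rw [h5]
      have h6 : 7 ^ 4 * ρ ^ 2 ≤ 1 / 2 ^ 5 := by nlinarith
      calc _ ≤ (1 / 2 ^ 5) * (2 : ℝ) ^ 5 := mul_le_mul h6 h4 (by positivity) (by positivity)
        _ = 1 := by norm_num
    · have h2 : (J : ℝ) ≤ ((2 * (2 * L) : ℕ) : ℝ) := by exact_mod_cast h'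
      push_cast at h2
      have h3 : ρ * ((L + J : ℕ) : ℝ) ≤ 5 := by
        push_cast
        nlinarith
      have h4 : (ρ * ((L + J : ℕ) : ℝ)) ^ 5 ≤ 5 ^ 5 := pow_le_pow_left₀ (by positivity) h3 5
      have h5 : 7 * s * ρ ≤ 28 := by nlinarith
      have h6 : (7 * s * ρ) ^ 4 ≤ 28 ^ 4 := pow_le_pow_left₀ (by positivity) h5 4
      have h7 : (7 * s * ρ ^ 3) ^ 4 * ((L + J : ℕ) : ℝ) ^ 5 =
          ρ ^ 3 * ((7 * s * ρ) ^ 4 * (ρ * ((L + J : ℕ) : ℝ)) ^ 5) := by ring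
      rw [h7]
      have h8 : (7 * s * ρ) ^ 4 * (ρ * ((L + J : ℕ) : ℝ)) ^ 5 ≤ 28 ^ 4 * 5 ^ 5 :=
        mul_le_mul h6 h4 (by positivity) (by positivity)
      have h9 : ρ ^ 3 ≤ (1 / 10 ^ 15) ^ 3 := pow_le_pow_left₀ hρ0.le hρ 3
      calc _ ≤ ((1 : ℝ) / 10 ^ 15) ^ 3 * (28 ^ 4 * 5 ^ 5) :=
            mul_le_mul h9 h8 (by positivity) (by positivity)
        _ ≤ 1 := by norm_num
  have hJρ : ρ ^ 2 * J ≤ 4 := by
    rcases hcase with ⟨-, h'⟩ | ⟨-, h'⟩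
    · have h2 : (J : ℝ) ≤ Q := by exact_mod_cast h'
      rw [le_div_iff₀ (by positivity)] at hQ1
      nlinarith [pow_pos hρ0 2]
    · have h2 : (J : ℝ) ≤ ((2 * (2 * L) : ℕ) : ℝ) := by exact_mod_cast h'
      push_cast at h2
      have h3 : ρ * J ≤ 4 := by nlinarith
      have h4 : 0 ≤ ρ * J := by positivity
      nlinarith
  refine ⟨J, 7 * s * ρ ^ 3, hJ, by positivity, ?_, hρ', hρ'', hinv, hJρ⟩
  have h2 : |Real.sin (J * A)| ≤ s * (7 / 2 * ρ ^ 2) :=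
    hsin.trans (mul_le_mul_of_nonneg_left hQ3 (by positivity))
  calc 2 * ρ * |Real.sin (J * A)| ≤ 2 * ρ * (s * (7 / 2 * ρ ^ 2)) :=
        mul_le_mul_of_nonneg_left h2 (by positivity)
    _ = _ := by ring

theorem step {l A k t ρ v : ℝ} {L : ℕ} (h0 : 0 < l) (h1 : l ≤ 2 / 3) (hk : 0 < k)
    (h : St l A k t L ρ v) :
    ∃ (t' ρ' : ℝ) (L' : ℕ), St l A k t' L' ρ' (v ^ 2 * Real.exp (-(166 + 14 / k))) ∧
      ρ' ≤ 28 * L * ρ ^ 3 ∧ ρ' ^ 4 * (L' : ℝ) ^ 5 ≤ 1 := by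
  obtain ⟨ht1, htL, hL, hρ0, hρk, hρ, hρL, ⟨r, hr, hT⟩, hc, hv0, hv⟩ := h
  have ht0 : 0 ≤ t := by linarith
  have hR := hT.refl hr
  obtain ⟨J, ρ', hJ, hρ'0, hsin, hρ', hρ'', hinv, hJρ⟩ := params A hL hρ0 hρ hρL
  have htail : t * l ^ J ≤ l ^ L := tail_le h0 h1 ht0 htL (by omega)
  have hcs := cs_lower h0 hR hρ0.le hc J
  have hlL := pow_pos h0 L
  refine ⟨t * (l⁻¹ ^ J - l ^ J), ρ', L + J, ⟨new_ge h0 h1 ht1 (by omega),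
    new_le h0 ht0 htL, by omega, hρ'0, by linarith, by linarith,
    rho_mul_le hρ'0 (by linarith) hinv, ⟨_, ?_, hT.step h0 J⟩, fun j => ?_,
    by positivity, ?_⟩, hρ', hinv⟩
  · rw [abs_mul, abs_mul, abs_two]
    exact le_trans (mul_le_mul_of_nonneg_right (by linarith) (abs_nonneg _)) hsin
  · have h2 := new_cs h0 h1 ht0 hcs j
    have h3 : l ^ J ≤ l ^ 2 := pow_le_pow_of_le_one h0.le (by linarith) (by omega)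
    have h4 : l ^ (L + J) ≤ l ^ L / 2 := by
      rw [pow_add]
      have : l ^ 2 ≤ 1 / 2 := by nlinarith
      nlinarith
    linarith
  · have h2 := sym (n := J) h0 h1 hR ht0 htL hk (fun j => by linarith [hc j]) hρ0.le hρk hρL hJρ
      hv0.le hv
    have h3 := pert (d := -(t * l ^ J)) (k := k + 14 * l ^ L) h0 h1 (by positivity)
      (fun j => by linarith [hcs j])
      (by rw [abs_neg, abs_of_nonneg (by positivity)]; linarith) h2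
    rw [mul_assoc, ← Real.exp_add] at h3
    convert h3 using 1
    · ring
    · congr 2; ring

end Vale.Agent.P105
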