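import Vale.Agent.P105.Basic

/-! Trace relations and the reflection symmetry of the cosine factors. -/

namespace Vale.Agent.P105

open Finset Real

/-- The trace relation for `t` with unimodular coefficient `r`. -/
def Trip (l A t r : ℝ) : Prop :=
  ∃ σ γ : ℝ, (σ = 1 ∨ σ = -1) ∧
    ∀ m : ℤ, ∃ k : ℤ, t * l ^ (-m) + σ * (t * l ^ m) + r * Real.cos (m * A + γ) = k

/-- Approximate reflection symmetry. -/
def Refl (l t ρ : ℝ) : Prop :=
  ∀ m : ℕ, ∃ d : ℝ, |d| ≤ ρ ∧ |cs (t * l⁻¹ ^ m)| = |cs (t * l ^ m + d)| ∧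
    |sn (t * l⁻¹ ^ m)| = |sn (t * l ^ m + d)|

theorem Trip.refl {l A t r ρ : ℝ} (h : Trip l A t r) (hr : |r| ≤ ρ) : Refl l t ρ := by
  obtain ⟨σ, γ, hσ, h⟩ := h
  intro m
  obtain ⟨k, hk⟩ := h m
  rw [zpow_neg, zpow_natCast, ← inv_pow] at hk
  have hc : |r * Real.cos ((m : ℤ) * A + γ)| ≤ ρ := by
    rw [abs_mul]
    exact (mul_le_of_le_one_right (abs_nonneg _) (Real.abs_cos_le_one _)).trans hr
  rcases hσ with rfl | rfl
  · refine ⟨_, hc, ?_, ?_⟩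
    · rw [show t * l⁻¹ ^ m = -(t * l ^ m + r * Real.cos ((m : ℤ) * A + γ)) + k by linarith,
        cs_add_int, cs_neg]
    · rw [show t * l⁻¹ ^ m = -(t * l ^ m + r * Real.cos ((m : ℤ) * A + γ)) + k by linarith,
        sn_add_int, sn_neg, abs_neg]
  · refine ⟨-(r * Real.cos ((m : ℤ) * A + γ)), by rwa [abs_neg], ?_, ?_⟩
    · rw [show t * l⁻¹ ^ m = (t * l ^ m + -(r * Real.cos ((m : ℤ) * A + γ))) + k by linarith,
        cs_add_int]
    · rw [show t * l⁻¹ ^ m = (t * l ^ m + -(r * Real.cos ((m : ℤ) * A + γ))) + k by linarith,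
        sn_add_int]

theorem Trip.step {l A t r : ℝ} (h0 : 0 < l) (h : Trip l A t r) (J : ℕ) :
    Trip l A (t * (l⁻¹ ^ J - l ^ J)) (2 * r * Real.sin (J * A)) := by
  obtain ⟨σ, γ, hσ, h⟩ := h
  refine ⟨-σ, γ + π / 2, by rcases hσ with rfl | rfl <;> simp, fun m => ?_⟩
  obtain ⟨k1, h1⟩ := h (m + J)
  obtain ⟨k2, h2⟩ := h (m - J)
  refine ⟨k1 - k2, ?_⟩
  push_cast at h1 h2 ⊢
  rw [← h1, ← h2]
  have hl : l ≠ 0 := h0.ne'
  rw [neg_add, neg_sub, zpow_add₀ hl, zpow_add₀ hl, zpow_sub₀ hl, zpow_sub₀ hl, zpow_neg,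
    zpow_neg, zpow_natCast, ← add_assoc (m * A), Real.cos_add_pi_div_two,
    show (m + J) * A + γ = (m * A + γ) + J * A by ring,
    show (m - J) * A + γ = (m * A + γ) - J * A by ring, Real.cos_add, Real.cos_sub, inv_pow]
  have := zpow_ne_zero m hl
  have := pow_ne_zero J hl
  field_simp
  ring

theorem base_nat {l A : ℝ} {a b : ℤ} (h0 : 0 < l) (ha : (l + l⁻¹) + 2 * Real.cos A = a)
    (hb : (l + l⁻¹) * (2 * Real.cos A) = b) (n : ℕ) :
    ∃ p q : ℤ, l⁻¹ ^ n + l ^ n = p + q * (l + l⁻¹) ∧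
      2 * Real.cos (n * A) = p + q * (2 * Real.cos A) := by
  induction n using Nat.twoStepInduction with
  | zero => exact ⟨2, 0, by norm_num, by norm_num⟩
  | one => exact ⟨0, 1, by simp [add_comm], by simp⟩
  | more n ih1 ih2 =>
    obtain ⟨p, q, h1, h2⟩ := ih1
    obtain ⟨p', q', h1', h2'⟩ := ih2
    refine ⟨-b * q' - p, p' + a * q' - q, ?_, ?_⟩
    · have h3 : l⁻¹ ^ (n + 2) + l ^ (n + 2) =
          (l + l⁻¹) * (l⁻¹ ^ (n + 1) + l ^ (n + 1)) - (l⁻¹ ^ n + l ^ n) := by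
        have := h0.ne'
        simp only [pow_succ]
        field_simp
        ring
      rw [h3, h1, h1']
      push_cast
      rw [← ha, ← hb]; ring
    · have h3 : 2 * Real.cos ((n + 2 : ℕ) * A) =
          (2 * Real.cos A) * (2 * Real.cos ((n + 1 : ℕ) * A)) - 2 * Real.cos (n * A) := by
        push_cast
        rw [show ((n : ℝ) + 2) * A = (n + 1) * A + A by ring,
          show (n : ℝ) * A = (n + 1) * A - A by ring, Real.cos_add, Real.cos_sub]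
        ring
      rw [h3, h2, h2']
      push_cast
      rw [← ha, ← hb]; ring

theorem trip_base {l A : ℝ} {a b : ℤ} (h0 : 0 < l) (ha : (l + l⁻¹) + 2 * Real.cos A = a)
    (hb : (l + l⁻¹) * (2 * Real.cos A) = b) : Trip l A 1 2 := by
  refine ⟨1, 0, Or.inl rfl, fun m => ?_⟩
  obtain ⟨n, rfl | rfl⟩ := Int.eq_nat_or_neg m
  · obtain ⟨p, q, h1, h2⟩ := base_nat h0 ha hb n
    refine ⟨2 * p + q * a, ?_⟩
    rw [zpow_neg, zpow_natCast, ← inv_pow]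
    push_cast
    rw [add_zero, h2, ← ha]
    linarith
  · obtain ⟨p, q, h1, h2⟩ := base_nat h0 ha hb n
    refine ⟨2 * p + q * a, ?_⟩
    rw [neg_neg, zpow_neg, zpow_natCast, ← inv_pow]
    push_cast
    rw [add_zero, neg_mul, Real.cos_neg, h2, ← ha]
    linarith

theorem mul_inv_pow_lt {l : ℝ} (h0 : 0 < l) (t : ℝ) {n j : ℕ} (h : j ≤ n) :
    t * l⁻¹ ^ n * l ^ j = t * l⁻¹ ^ (n - j) := by
  obtain ⟨i, rfl⟩ := Nat.exists_eq_add_of_le h
  have := h0.ne'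
  rw [Nat.add_sub_cancel_left, pow_add, inv_pow, inv_pow]
  field_simp

theorem mul_inv_pow_ge {l : ℝ} (h0 : 0 < l) (t : ℝ) {n j : ℕ} (h : n ≤ j) :
    t * l⁻¹ ^ n * l ^ j = t * l ^ (j - n) := by
  obtain ⟨i, rfl⟩ := Nat.exists_eq_add_of_le h
  have := h0.ne'
  rw [Nat.add_sub_cancel_left, pow_add, inv_pow]
  field_simp

theorem prod_refl {l : ℝ} (h0 : 0 < l) (t : ℝ) (n : ℕ) (f : ℝ → ℝ) :
    ∏ j ∈ range n, f (t * l⁻¹ ^ n * l ^ j) = ∏ j ∈ range n, f (t * l⁻¹ ^ (j + 1)) := by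
  rw [← Finset.prod_range_reflect (fun j => f (t * l⁻¹ ^ (j + 1))) n]
  refine Finset.prod_congr rfl fun j hj => ?_
  have := Finset.mem_range.1 hj
  rw [mul_inv_pow_lt h0 t this.le]
  congr 3
  omega

theorem sum_refl {l : ℝ} (h0 : 0 < l) (t : ℝ) (n : ℕ) (f : ℝ → ℝ) :
    ∑ j ∈ range n, f (t * l⁻¹ ^ n * l ^ j) = ∑ j ∈ range n, f (t * l⁻¹ ^ (j + 1)) := by
  rw [← Finset.sum_range_reflect (fun j => f (t * l⁻¹ ^ (j + 1))) n]
  refine Finset.sum_congr rfl fun j hj => ?_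
  have := Finset.mem_range.1 hj
  rw [mul_inv_pow_lt h0 t this.le]
  congr 3
  omega

theorem sum_sn_succ {l t : ℝ} {L : ℕ} (h0 : 0 < l) (h1 : l ≤ 2 / 3) (ht0 : 0 ≤ t)
    (ht : t * l ^ L ≤ 1) (M : ℕ) : ∑ j ∈ range M, |sn (t * l ^ (j + 1))| ≤ L + 21 := by
  have h := sum_sn h0 h1 ht0 ht (M + 1)
  rw [Finset.sum_range_succ'] at h
  linarith [abs_nonneg (sn (t * l ^ 0))]

theorem sym {l t ρ k v : ℝ} {L n : ℕ} (h0 : 0 < l) (h1 : l ≤ 2 / 3) (hR : Refl l t ρ)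
    (ht0 : 0 ≤ t) (ht : t * l ^ L ≤ 1) (hk : 0 < k) (hc : ∀ j : ℕ, k ≤ |cs (t * l ^ j)|)
    (hρ0 : 0 ≤ ρ) (hρ : ρ ≤ k / 100) (hρL : ρ * L ≤ 1) (hn : ρ ^ 2 * n ≤ 4)
    (hv0 : 0 ≤ v) (hv : Low l t v) :
    Low l (t * l⁻¹ ^ n) (v ^ 2 * Real.exp (-(163 + 14 / k))) := by
  have hk1 : k ≤ 1 := (hc 0).trans (abs_cs_le _)
  have key := prod_lower (range n) (fun j => |cs (t * l ^ (j + 1))|)
    (fun j => |cs (t * l⁻¹ ^ (j + 1))|)
    (fun j => 20 * ρ ^ 2 + 7 * ρ / k * |sn (t * l ^ (j + 1))|) (fun j _ => abs_nonneg _)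
    (fun j _ => by positivity)
    (fun j _ => by
      have h2 := abs_sn_le_one (t * l ^ (j + 1))
      have h3 : 7 * ρ / k ≤ 7 / 100 := by
        rw [div_le_iff₀ hk]; linarith
      have h4 : 7 * ρ / k * |sn (t * l ^ (j + 1))| ≤ 7 / 100 :=
        (mul_le_of_le_one_right (by positivity) h2).trans h3
      have h5 : ρ ≤ 1 / 100 := by linarith
      nlinarith)
    (fun j _ => by
      obtain ⟨d, hd, h2, -⟩ := hR (j + 1)
      rw [h2]
      refine le_trans ?_ (abs_cs_add_ge' _ _)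
      have h3 : d ^ 2 ≤ ρ ^ 2 := sq_le_sq' (abs_le.1 hd).1 (abs_le.1 hd).2
      have h4 := hc (j + 1)
      set c := |cs (t * l ^ (j + 1))|
      set s := |sn (t * l ^ (j + 1))|
      have hs : 0 ≤ s := abs_nonneg _
      have h5 : 7 * |d| * s ≤ c * (7 * ρ / k * s) := by
        have h6 : 7 * |d| ≤ c * (7 * ρ / k) := by
          rw [← mul_div_assoc, le_div_iff₀ hk]
          nlinarith [abs_nonneg d]
        calc 7 * |d| * s ≤ c * (7 * ρ / k) * s := mul_le_mul_of_nonneg_right h6 hs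
          _ = _ := by ring
      have h7 : 0 ≤ c := abs_nonneg _
      nlinarith)
  have hsum : ∑ j ∈ range n, (20 * ρ ^ 2 + 7 * ρ / k * |sn (t * l ^ (j + 1))|) ≤
      80 + (7 / k + 3 / 2) := by
    rw [Finset.sum_add_distrib, Finset.sum_const, Finset.card_range,
      nsmul_eq_mul, ← Finset.mul_sum]
    have h2 := sum_sn_succ h0 h1 ht0 ht n
    have h3 : 7 * ρ / k * ∑ j ∈ range n, |sn (t * l ^ (j + 1))| ≤ 7 * ρ / k * (L + 21) :=
      mul_le_mul_of_nonneg_left h2 (by positivity)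
    have h4 : 7 * ρ / k * (L + 21) ≤ 7 / k + 3 / 2 := by
      rw [div_mul_eq_mul_div, div_add' _ _ _ hk.ne', div_le_div_iff_of_pos_right hk]
      nlinarith
    nlinarith
  have h2 : v ≤ ∏ j ∈ range n, |cs (t * l ^ (j + 1))| := by
    have h3 := hv (n + 1)
    rw [abs_PP, Finset.prod_range_succ'] at h3
    exact h3.trans (mul_le_of_le_one_right (Finset.prod_nonneg fun j _ => abs_nonneg _)
      (abs_cs_le _))
  have h3 : v * Real.exp (-(163 + 14 / k)) ≤ |PP l (t * l⁻¹ ^ n) n| := by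
    rw [abs_PP, prod_refl h0 t n (fun x => |cs x|)]
    refine le_trans ?_ key
    refine mul_le_mul h2 (Real.exp_le_exp.2 ?_) (Real.exp_pos _).le (hv0.trans h2)
    have : 14 / k = 2 * (7 / k) := by ring
    linarith
  have h4 : Low l (t * l⁻¹ ^ n * l ^ n) v := by
    rw [mul_inv_pow_ge h0 t le_rfl]; simpa using hv
  have h5 := Low.of_split h3 (by positivity) h4 hv0
  convert h5 using 1
  ring

theorem cs_lower {l t ρ k : ℝ} (h0 : 0 < l) (hR : Refl l t ρ) (hρ0 : 0 ≤ ρ)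
    (hc : ∀ j : ℕ, k ≤ |cs (t * l ^ j)|) (n j : ℕ) :
    k - 7 * ρ ≤ |cs (t * l⁻¹ ^ n * l ^ j)| := by
  rcases le_total j n with h | h
  · rw [mul_inv_pow_lt h0 t h]
    obtain ⟨d, hd, h2, -⟩ := hR (n - j)
    rw [h2]
    linarith [abs_cs_add_ge (t * l ^ (n - j)) d, hc (n - j)]
  · rw [mul_inv_pow_ge h0 t h]
    linarith [hc (j - n)]

theorem sum_sn_up {l t ρ : ℝ} {L : ℕ} (h0 : 0 < l) (h1 : l ≤ 2 / 3) (hR : Refl l t ρ)
    (ht0 : 0 ≤ t) (ht : t * l ^ L ≤ 1) (n M : ℕ) :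
    ∑ j ∈ range M, |sn (t * l⁻¹ ^ n * l ^ j)| ≤ 2 * L + 42 + 7 * ρ * n := by
  have h2 : ∑ j ∈ range M, |sn (t * l⁻¹ ^ n * l ^ j)| ≤
      ∑ j ∈ range (n + M), |sn (t * l⁻¹ ^ n * l ^ j)| :=
    Finset.sum_le_sum_of_subset_of_nonneg (Finset.range_mono (by omega))
      (fun j _ _ => abs_nonneg _)
  refine h2.trans ?_
  rw [Finset.sum_range_add, sum_refl h0 t n (fun x => |sn x|)]
  have h3 : ∑ j ∈ range n, |sn (t * l⁻¹ ^ (j + 1))| ≤
      ∑ j ∈ range n, (|sn (t * l ^ (j + 1))| + 7 * ρ) := by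
    refine Finset.sum_le_sum fun j _ => ?_
    obtain ⟨d, hd, -, h2⟩ := hR (j + 1)
    rw [h2]
    linarith [abs_sn_add_le (t * l ^ (j + 1)) d]
  rw [Finset.sum_add_distrib, Finset.sum_const, Finset.card_range, nsmul_eq_mul] at h3
  have h4 : ∑ j ∈ range M, |sn (t * l⁻¹ ^ n * l ^ (n + j))| = ∑ j ∈ range M, |sn (t * l ^ j)| := by
    refine Finset.sum_congr rfl fun j _ => ?_
    rw [mul_inv_pow_ge h0 t (Nat.le_add_right n j), Nat.add_sub_cancel_left]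
  rw [h4]
  linarith [sum_sn h0 h1 ht0 ht M, sum_sn_succ h0 h1 ht0 ht n]

end Vale.Agent.P105
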